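import Vale.Agent.P097.H6.TopW0

/-!
# P097 : case [c], interface lemmas of the global world (native domains, `RH`, values, wall)
-/

set_option linter.all false

open Complex Metric Filter Topology Set MeasureTheory
open scoped ComplexConjugate

namespace Vale.Agent.P097.H6

open Vale.Agent.P097 Vale.Agent.P097.TA Vale.Agent.P097.H202 Vale.Agent.P097.SC
open Vale.Agent.P097.H85 Vale.Agent.P097.H929 Vale.Agent.P097.H543 Vale.Agent.P097.H456.C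

variable {κ Λ b : ℝ} {H Φ : ℂ → ℂ} {r e : ℝ} {α p : ℂ → ℂ → ℂ} {J F q Q : ℂ → ℂ}
  {e₁ c₀ : ℝ} {R : ℂ → ℝ} {A P θ : ℂ × ℂ → ℂ} {n : ℤ} {ε b₀ : ℝ}

theorem abs_im_le_of {n : ℤ} {ε b₀ : ℝ} (h : |(n : ℝ)| * ε ≤ b₀) {w : ℂ} (hw : |w.im| < ε) :
    |(n : ℝ) * w.im| ≤ b₀ := by
  rw [abs_mul]
  exact (mul_le_mul_of_nonneg_left hw.le (abs_nonneg _)).trans h

/-- the native domain is in the domain of the lines of the base -/
theorem Bn_sub (hB : CC.Base κ Λ b H Φ r e α p J F q Q e₁ c₀ R A P θ)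
    (h : |(n : ℝ)| * ε ≤ b₀) {t w : ℂ} (ht : (t, w) ∈ Bn R e₁ ε b₀ n) :
    (t + n * w, w) ∈ Dm R e₁ := by
  obtain ⟨h1, h2, h3, h3'⟩ := ht
  simp only at h1 h2 h3 h3'
  have h4 := abs_le.1 (abs_im_le_of h h3')
  have h5 : (t + (n : ℂ) * w).im = t.im + n * w.im := by simp
  refine ⟨?_, h3⟩
  show |(t + (n : ℂ) * w).im| < R w
  rw [h5, abs_of_nonneg (by linarith [h4.1])]
  exact h2

theorem isOpen_Bn (hB : CC.Base κ Λ b H Φ r e α p J F q Q e₁ c₀ R A P θ) :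
    IsOpen (Bn R e₁ ε b₀ n) := by
  rw [isOpen_iff_mem_nhds]
  rintro ⟨t, w⟩ ⟨h1, h2, h3, h3'⟩
  simp only at h1 h2 h3 h3'
  obtain ⟨h, hh1, hh2⟩ := exists_between h2
  have e1 : ∀ᶠ z : ℂ × ℂ in 𝓝 (t, w), h < R z.2 ∧ ‖z.2‖ < e₁ :=
    (continuous_snd.tendsto (t, w)).eventually (hB.rd.lsc h3 hh2)
  have e2 : ∀ᶠ z : ℂ × ℂ in 𝓝 (t, w), z.1.im + n * z.2.im < h :=
    (isOpen_lt (f := fun z : ℂ × ℂ => z.1.im + n * z.2.im) (by fun_prop)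
      continuous_const).mem_nhds hh1
  have e3 : ∀ᶠ z : ℂ × ℂ in 𝓝 (t, w), b₀ < z.1.im :=
    (isOpen_lt (g := fun z : ℂ × ℂ => z.1.im) continuous_const (by fun_prop)).mem_nhds h1
  have e4 : ∀ᶠ z : ℂ × ℂ in 𝓝 (t, w), |z.2.im| < ε :=
    (isOpen_lt (f := fun z : ℂ × ℂ => |z.2.im|) (by fun_prop) continuous_const).mem_nhds h3'
  filter_upwards [e1, e2, e3, e4] with z a1 a2 a3 a4
  exact ⟨a3, a2.trans a1.1, a1.2, a4⟩

theorem dn_Bn (hB : CC.Base κ Λ b H Φ r e α p J F q Q e₁ c₀ R A P θ) :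
    Dn b₀ (Bn R e₁ ε b₀ n) := by
  refine ⟨isOpen_Bn hB, fun t w h => h.1, ?_⟩
  rintro t w y ⟨h1, h2, h3⟩ hy1 hy2
  simp only at h1 h2 h3
  have h4 : ((t.re : ℂ) + (y : ℝ) * I).im = y := by simp
  refine ⟨?_, ?_, h3⟩
  · show b₀ < ((t.re : ℂ) + (y : ℝ) * I).im
    rw [h4]; exact hy1
  · show ((t.re : ℂ) + (y : ℝ) * I).im + n * w.im < R w
    rw [h4]; linarith

theorem jd_Ln (hB : CC.Base κ Λ b H Φ r e α p J F q Q e₁ c₀ R A P θ)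
    (h : |(n : ℝ)| * ε ≤ b₀) : JD (Ln A n) (Bn R e₁ ε b₀ n) ∧ JD (Ln P n) (Bn R e₁ ε b₀ n) := by
  constructor
  · rintro ⟨t, w⟩ ht
    have h1 := (hB.rd.aA _ (Bn_sub hB h ht)).differentiableAt
    have h2 : DifferentiableAt ℂ (fun z : ℂ × ℂ => (z.1 + (n : ℂ) * z.2, z.2)) (t, w) := by
      fun_prop
    exact (DifferentiableAt.comp (t, w) (f := fun z : ℂ × ℂ => (z.1 + (n : ℂ) * z.2, z.2)) h1
      h2).differentiableWithinAt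
  · rintro ⟨t, w⟩ ht
    have h1 := (hB.rd.aP _ (Bn_sub hB h ht)).differentiableAt
    have h2 : DifferentiableAt ℂ (fun z : ℂ × ℂ => (z.1 + (n : ℂ) * z.2, z.2)) (t, w) := by
      fun_prop
    exact (DifferentiableAt.comp (t, w) (f := fun z : ℂ × ℂ => (z.1 + (n : ℂ) * z.2, z.2)) h1
      h2).differentiableWithinAt

theorem rh_MM (hB : CC.Base κ Λ b H Φ r e α p J F q Q e₁ c₀ R A P θ)
    (h : |(n : ℝ)| * ε ≤ b₀) : RH b₀ (MM R A P e₁ ε b₀ n) :=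
  (rh_Mx (dn_Bn hB) (jd_Ln hB h).1).inter (rh_Mx (dn_Bn hB) (jd_Ln hB h).2)

theorem Bn_sub_MM (hB : CC.Base κ Λ b H Φ r e α p J F q Q e₁ c₀ R A P θ)
    (h : |(n : ℝ)| * ε ≤ b₀) : Bn R e₁ ε b₀ n ⊆ MM R A P e₁ ε b₀ n := fun _ hz =>
  ⟨base_sub (dn_Bn hB) (jd_Ln hB h).1 hz, base_sub (dn_Bn hB) (jd_Ln hB h).2 hz⟩

/-- the lines on `MM` -/
theorem ext_MM (hB : CC.Base κ Λ b H Φ r e α p J F q Q e₁ c₀ R A P θ) :
    IsExt b₀ (Ln A n) (Bn R e₁ ε b₀ n) (Mx b₀ (Ln A n) (Bn R e₁ ε b₀ n))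
      (gx b₀ (Ln A n) (Bn R e₁ ε b₀ n)) ∧
    IsExt b₀ (Ln P n) (Bn R e₁ ε b₀ n) (Mx b₀ (Ln P n) (Bn R e₁ ε b₀ n))
      (gx b₀ (Ln P n) (Bn R e₁ ε b₀ n)) :=
  ⟨isExt_Mx (isOpen_Bn hB), isExt_Mx (isOpen_Bn hB)⟩

/-- **the wall** : the native line is not regular above its height at irrational labels -/
theorem wall_MM (hB : CC.Base κ Λ b H Φ r e α p J F q Q e₁ c₀ R A P θ)
    (hε : 0 < ε) {u : ℝ} (hu : Irrational u) (hul : |u| < e₁) (hub : b₀ < R u) (y e' : ℝ)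
    (h' : 0 ≤ e') :
    ((y : ℂ) + ((R u + e' : ℝ) : ℂ) * I, (u : ℂ)) ∉ MM R A P e₁ ε b₀ 0 := by
  intro hm
  obtain ⟨x1, x2⟩ := ext_MM (n := 0) (b₀ := b₀) (ε := ε) hB
  have hd : ((y : ℂ) + ((R u : ℝ) : ℂ) * I, (u : ℂ)) ∈ MM R A P e₁ ε b₀ 0 := by
    have h1 := x1.dn.down _ _ (R u) hm.1 hub (by simp [h'])
    have h2 := x2.dn.down _ _ (R u) hm.2 hub (by simp [h'])
    have h3 : ((((y : ℂ) + ((R u + e' : ℝ) : ℂ) * I).re : ℂ) + (R u : ℝ) * I) =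
        (y : ℂ) + ((R u : ℝ) : ℂ) * I := by
      apply Complex.ext <;> simp
    rw [h3] at h1 h2
    exact ⟨h1, h2⟩
  have hMo : IsOpen (MM R A P e₁ ε b₀ 0) := x1.dn.op.inter x2.dn.op
  obtain ⟨ρ, hρ, hb⟩ := Metric.isOpen_iff.1 hMo _ hd
  refine hB.nj u hu hul y ⟨min ρ (min (R u - b₀) (min ε (e₁ - |u|))),
    lt_min hρ (lt_min (by linarith) (lt_min hε (by linarith))),
    fun z => gx b₀ (Ln A 0) (Bn R e₁ ε b₀ 0) z.1 z.2, fun z => gx b₀ (Ln P 0) (Bn R e₁ ε b₀ 0) z.1 z.2,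
    ?_, ?_, ?_⟩
  · have h1 : DifferentiableOn ℂ (fun z : ℂ × ℂ => gx b₀ (Ln A 0) (Bn R e₁ ε b₀ 0) z.1 z.2)
        (Mx b₀ (Ln A 0) (Bn R e₁ ε b₀ 0)) := x1.jd
    intro z hz
    exact (Hol.analyticOnNhd_of_differentiableOn x1.dn.op h1) z
      (hb (ball_subset_ball (min_le_left _ _) hz)).1
  · have h1 : DifferentiableOn ℂ (fun z : ℂ × ℂ => gx b₀ (Ln P 0) (Bn R e₁ ε b₀ 0) z.1 z.2)
        (Mx b₀ (Ln P 0) (Bn R e₁ ε b₀ 0)) := x2.jd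
    intro z hz
    exact (Hol.analyticOnNhd_of_differentiableOn x2.dn.op h1) z
      (hb (ball_subset_ball (min_le_left _ _) hz)).2
  · rintro ⟨t, w⟩ hz hzD
    have hz1 := hb (ball_subset_ball (min_le_left _ _) hz)
    have hz2 : dist t ((y : ℂ) + ((R u : ℝ) : ℂ) * I) < min ρ (min (R u - b₀) (min ε (e₁ - |u|))) :=
      lt_of_le_of_lt (le_max_left _ _) hz
    have hz3 : dist w (u : ℂ) < min ρ (min (R u - b₀) (min ε (e₁ - |u|))) :=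
      lt_of_le_of_lt (le_max_right _ _) hz
    have h1 : |t.im - R u| < R u - b₀ := by
      have h2 := Complex.abs_im_le_norm (t - ((y : ℂ) + ((R u : ℝ) : ℂ) * I))
      rw [← dist_eq_norm] at h2
      have h3 : (t - ((y : ℂ) + ((R u : ℝ) : ℂ) * I)).im = t.im - R u := by simp
      rw [h3] at h2
      exact (h2.trans_lt hz2).trans_le ((min_le_right _ _).trans (min_le_left _ _))
    have h2 : ‖w‖ < e₁ := by
      have h3 : ‖w‖ ≤ ‖w - u‖ + |u| := by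
        have := norm_add_le (w - u) (u : ℂ)
        rwa [sub_add_cancel, norm_real, Real.norm_eq_abs] at this
      have h4 : ‖w - u‖ < e₁ - |u| := by
        rw [← dist_eq_norm]
        exact hz3.trans_le ((min_le_right _ _).trans ((min_le_right _ _).trans (min_le_right _ _)))
      linarith
    have h2' : |w.im| < ε := by
      have h3 := Complex.abs_im_le_norm (w - u)
      rw [sub_im, ofReal_im, sub_zero, ← dist_eq_norm] at h3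
      exact h3.trans_lt (hz3.trans_le ((min_le_right _ _).trans ((min_le_right _ _).trans
        (min_le_left _ _))))
    have h3 : b₀ < t.im := by linarith [(abs_lt.1 h1).1]
    have h4 : (t, w) ∈ Bn R e₁ ε b₀ 0 := by
      refine ⟨h3, ?_, h2, h2'⟩
      have h5 : |t.im| < R w := hzD.1
      show t.im + ((0 : ℤ) : ℝ) * w.im < R w
      rw [Int.cast_zero, zero_mul, add_zero]
      exact (le_abs_self _).trans_lt h5
    constructor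
    · have h5 := x1.eq (t, w) hz1.1 h4
      show gx b₀ (Ln A 0) (Bn R e₁ ε b₀ 0) t w = A (t, w)
      rw [h5]
      simp [Ln]
    · have h5 := x2.eq (t, w) hz1.2 h4
      show gx b₀ (Ln P 0) (Bn R e₁ ε b₀ 0) t w = P (t, w)
      rw [h5]
      simp [Ln]

/-- the domains of the world -/
theorem GW.rh {m : ℝ} {Ψ : ℂ → ℂ} {S : Set ℝ} {Pt : ℝ → ℂ} {c k : ℝ → ℝ} {y₁ y₂ s s' : ℝ}
    (hB : CC.Base κ Λ b H Φ r e α p J F q Q e₁ c₀ R A P θ)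
    (G : GW R A P e₁ n ε b₀ m Ψ S Pt c k y₁ y₂ s s') :
    (|(n : ℝ)| * ε ≤ b₀ ∧ |((n - 1 : ℤ) : ℝ)| * ε ≤ b₀) ∧ RH b₀ (MM R A P e₁ ε b₀ n) ∧
      RH b₀ (MM R A P e₁ ε b₀ (n - 1)) := by
  have h1 : |(n : ℝ)| * ε ≤ b₀ := by
    have := G.nε
    nlinarith [G.ε0]
  have h2 : |((n - 1 : ℤ) : ℝ)| * ε ≤ b₀ := by
    refine (mul_le_mul_of_nonneg_right ?_ G.ε0.le).trans G.nε
    push_cast
    have := abs_sub (n : ℝ) 1
    rwa [abs_one] at this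
  exact ⟨⟨h1, h2⟩, rh_MM hB h1, rh_MM hB h2⟩

/-- **the thin layer of the world** -/
theorem GW.exists_lay {m : ℝ} {Ψ : ℂ → ℂ} {S : Set ℝ} {Pt : ℝ → ℂ} {c k : ℝ → ℝ}
    {y₁ y₂ s s' : ℝ} (hB : CC.Base κ Λ b H Φ r e α p J F q Q e₁ c₀ R A P θ)
    (G : GW R A P e₁ n ε b₀ m Ψ S Pt c k y₁ y₂ s s') :
    ∃ y₀ u₀ σ : ℝ, y₁ < y₀ ∧ y₀ < y₂ ∧ σ ≤ s' ∧
      Lay (MM R A P e₁ ε b₀ n) (MM R A P e₁ ε b₀ (n - 1)) b₀ S Pt c y₀ u₀ σ s :=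
  GW.lay (G.rh hB).2.1 (G.rh hB).2.2 G

end Vale.Agent.P097.H6
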