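import Vale.Agent.P097.H6.WallG

/-!
# P097 : case [c], row WALL = (A6) + (A7) over the global world, assembly
-/

set_option linter.all false

open Complex Metric Filter Topology Set MeasureTheory
open scoped ComplexConjugate

namespace Vale.Agent.P097.H6

open Vale.Agent.P097 Vale.Agent.P097.TA Vale.Agent.P097.H202 Vale.Agent.P097.SC
open Vale.Agent.P097.H85 Vale.Agent.P097.H929 Vale.Agent.P097.H543 Vale.Agent.P097.H456.C
open Vale.Agent.P097.H877.Bd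

variable {κ Λ b : ℝ} {H Φ : ℂ → ℂ} {r e : ℝ} {α p : ℂ → ℂ → ℂ} {J F q Q : ℂ → ℂ}
  {e₁ c₀ : ℝ} {R : ℂ → ℝ} {A P θ : ℂ × ℂ → ℂ} {n : ℤ} {ε b₀ : ℝ}

/-- the native domain of the position -/
def Wn (R : ℂ → ℝ) (e₁ ε b₀ : ℝ) (n : ℤ) : Set (ℂ × ℂ) := Bn R e₁ ε b₀ n ∩ Bn R e₁ ε b₀ (n - 1)

theorem Wn_Pd (hB : CC.Base κ Λ b H Φ r e α p J F q Q e₁ c₀ R A P θ)
    (hn : (|(n : ℝ)| + 1) * ε ≤ b₀) {t w : ℂ} (h : (t, w) ∈ Wn R e₁ ε b₀ n) :
    (t + ((n : ℂ) - 1 / 2) * w, w) ∈ Pd R e₁ := by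
  obtain ⟨⟨h1, h2, h3, hw⟩, ⟨-, h5, -⟩⟩ := h
  simp only at h1 h2 h3 hw h5
  have e1 : (t + ((n : ℂ) - 1 / 2) * w).im = t.im + (n - 1 / 2) * w.im := by
    simp
  have a1 : |(n : ℝ) * w.im| ≤ |(n : ℝ)| * ε := by
    rw [abs_mul]
    exact mul_le_mul_of_nonneg_left hw.le (abs_nonneg _)
  have a2 := (abs_le.1 a1).1
  have a3 := abs_lt.1 hw
  have a4 : (|(n : ℝ)| + 1) * ε = |(n : ℝ)| * ε + ε := by ring
  rw [a4] at hn
  push_cast at h5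
  refine ⟨?_, h3⟩
  show |(t + ((n : ℂ) - 1 / 2) * w).im| + |w.im| / 2 < R w
  rw [e1]
  have a5 : 0 < t.im + (n - 1 / 2) * w.im := by
    have : t.im + (n - 1 / 2) * w.im = t.im + n * w.im - w.im / 2 := by ring
    rw [this]
    linarith [a3.2]
  rw [abs_of_pos a5]
  rcases abs_cases w.im with ⟨h6, -⟩ | ⟨h6, -⟩
  · rw [h6]; linarith
  · rw [h6]; linarith

/-- the relations on the native domain -/
theorem rel_Wn (hB : CC.Base κ Λ b H Φ r e α p J F q Q e₁ c₀ R A P θ)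
    (hn : (|(n : ℝ)| + 1) * ε ≤ b₀) {t w : ℂ} (h : (t, w) ∈ Wn R e₁ ε b₀ n) :
    |(Th θ n (t, w)).im| < b ∧
    Ln A n t w = 2 * F (Th θ n (t, w)) - Ln A (n - 1) t w ∧
    Ln P n t w = 2 * q (Th θ n (t, w)) * cos (F (Th θ n (t, w)) - Ln A (n - 1) t w) -
      Ln P (n - 1) t w ∧
    deriv F (Th θ n (t, w)) * (q (Th θ n (t, w)) * cos (Ln A (n - 1) t w - F (Th θ n (t, w))) -
      Ln P (n - 1) t w) + deriv q (Th θ n (t, w)) *
        sin (Ln A (n - 1) t w - F (Th θ n (t, w))) = 0 := by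
  have hP := Wn_Pd hB hn h
  have e1 : t + ((n : ℂ) - 1 / 2) * w + w / 2 = t + (n : ℂ) * w := by ring
  have e2 : t + ((n : ℂ) - 1 / 2) * w - w / 2 = t + ((n - 1 : ℤ) : ℂ) * w := by push_cast; ring
  have sA := hB.pc.sA _ _ hP
  have sP := hB.pc.sP _ _ hP
  have dP := hB.pc.dP _ _ hP
  rw [e1, e2] at sA sP dP
  have hT : Th θ n (t, w) = θ (t + ((n : ℂ) - 1 / 2) * w, w) := rfl
  have hL1 : ∀ f : ℂ × ℂ → ℂ, Ln f n t w = f (t + (n : ℂ) * w, w) := fun f => rfl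
  have hL2 : ∀ f : ℂ × ℂ → ℂ, Ln f (n - 1) t w = f (t + ((n - 1 : ℤ) : ℂ) * w, w) := fun f => rfl
  rw [hT, hL1, hL1, hL2, hL2]
  set X := θ (t + ((n : ℂ) - 1 / 2) * w, w) with hX
  set a₁ := A (t + (n : ℂ) * w, w) with ha₁
  set a₂ := A (t + ((n - 1 : ℤ) : ℂ) * w, w) with ha₂
  set p₁ := P (t + (n : ℂ) * w, w) with hp₁
  set p₂ := P (t + ((n - 1 : ℤ) : ℂ) * w, w) with hp₂
  have e3 : F X - a₂ = (a₁ - a₂) / 2 := by linear_combination (-1 / 2 : ℂ) * sA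
  have e4 : a₂ - F X = -((a₁ - a₂) / 2) := by linear_combination (1 / 2 : ℂ) * sA
  refine ⟨hB.pc.mem _ hP, by linear_combination sA, ?_, ?_⟩
  · rw [e3]
    linear_combination sP
  · rw [e4, Complex.cos_neg, Complex.sin_neg]
    linear_combination (-1 / 2 : ℂ) * deriv F X * sP + (1 / 2 : ℂ) * dP

/-- the cone of a label of the world -/
theorem cone_Bn {m : ℝ} {Ψ : ℂ → ℂ} {S : Set ℝ} {Pt : ℝ → ℂ} {c k : ℝ → ℝ} {y₁ y₂ s s' : ℝ}
    (G : GW R A P e₁ n ε b₀ m Ψ S Pt c k y₁ y₂ s s') {u : ℝ} (hu : u ∈ S) (j : ℤ) :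
    ∃ K₀ : ℝ, ∃ δ₁ > 0, ∀ t w : ℂ, b₀ < t.im → t.im < R u - K₀ * ‖w - u‖ → ‖w - u‖ < δ₁ →
      (t, w) ∈ Bn R e₁ ε b₀ j := by
  obtain ⟨K, hK⟩ := G.cone
  obtain ⟨δ, hδ, h1⟩ := hK 1 one_pos
  have hub := G.Se u hu
  have hε0 := G.ε0
  refine ⟨|c u| + |K| + 1 + |(j : ℝ)|, min δ (min ε (e₁ - |u|)),
    lt_min hδ (lt_min hε0 (by linarith)), ?_⟩
  intro t w ht1 ht2 hw
  have h2 := h1 u hu (w - u) (hw.trans_le (min_le_left _ _))
  have e0 : (u : ℂ) + (w - u) = w := by ring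
  rw [e0] at h2
  have hN := norm_nonneg (w - (u : ℂ))
  have him : |w.im| ≤ ‖w - u‖ := by
    have := Complex.abs_im_le_norm (w - u)
    simpa using this
  have e1 : (w - (u : ℂ)).im = w.im := by simp
  have b1 : -(|c u| * ‖w - u‖) ≤ c u * (w - u).re := by
    have h3 : |c u * (w - u).re| ≤ |c u| * ‖w - u‖ := by
      rw [abs_mul]
      exact mul_le_mul_of_nonneg_left (Complex.abs_re_le_norm _) (abs_nonneg _)
    exact (abs_le.1 h3).1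
  have b2 : K * |(w - u).im| ≤ |K| * ‖w - u‖ := by
    rw [e1]
    exact (mul_le_mul_of_nonneg_right (le_abs_self K) (abs_nonneg _)).trans
      (mul_le_mul_of_nonneg_left him (abs_nonneg _))
  have b3 : (j : ℝ) * w.im ≤ |(j : ℝ)| * ‖w - u‖ := by
    refine (le_abs_self _).trans ?_
    rw [abs_mul]
    exact mul_le_mul_of_nonneg_left him (abs_nonneg _)
  have e2 : (|c u| + |K| + 1 + |(j : ℝ)|) * ‖w - u‖ = |c u| * ‖w - u‖ + |K| * ‖w - u‖ +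
    1 * ‖w - u‖ + |(j : ℝ)| * ‖w - u‖ := by ring
  rw [e2] at ht2
  refine ⟨ht1, ?_, ?_, ?_⟩
  · show t.im + j * w.im < R w
    linarith
  · have h3 : ‖w‖ ≤ ‖w - u‖ + |u| := by
      have := norm_add_le (w - u) (u : ℂ)
      rwa [sub_add_cancel, norm_real, Real.norm_eq_abs] at this
    have h4 := hw.trans_le ((min_le_right _ _).trans (min_le_right _ _))
    show ‖w‖ < e₁
    linarith
  · exact him.trans_lt (hw.trans_le ((min_le_right _ _).trans (min_le_left _ _)))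

/-- compactness in the abscissa -/
theorem win_unif {M : Set (ℂ × ℂ)} {S : Set ℝ} {Pt : ℝ → ℂ} {c : ℝ → ℝ} {u s c₁ Λ₁ z₁ z₂ : ℝ}
    (hu : u ∈ S) (hc₁ : 0 < c₁) (h : ∀ y ∈ Icc z₁ z₂, RegB M b₀ S Pt c y u s) :
    ∃ r₁ > 0, ∀ y ∈ Icc z₁ z₂, ∀ ρ, 0 < ρ → ρ < r₁ →
      Win b₀ u (Pt u).im (c u) y ρ s c₁ Λ₁ ⊆ M := by
  have h1 : ∀ y ∈ Icc z₁ z₂, ∃ d > 0, ∃ r₀ > 0, ∀ y' : ℝ, |y' - y| < d → ∀ ρ, 0 < ρ → ρ < r₀ →
      Win b₀ u (Pt u).im (c u) y' ρ s c₁ Λ₁ ⊆ M := by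
    intro y hy
    obtain ⟨d, hd, h2⟩ := h y hy
    obtain ⟨r₀, hr₀, h3⟩ := h2 c₁ hc₁ Λ₁
    exact ⟨d, hd, r₀, hr₀, fun y' hy' ρ h4 h5 => h3 u hu (by simpa using hd) y' hy' ρ h4 h5⟩
  choose! d hd r₀ hr₀ h2 using h1
  obtain ⟨t, ht1, ht2⟩ := (isCompact_Icc (a := z₁) (b := z₂)).elim_nhds_subcover
    (fun y => if y ∈ Icc z₁ z₂ then ball y (d y) else univ) (fun y hy => by
      rw [if_pos hy]; exact ball_mem_nhds y (hd y hy))
  obtain ⟨r₁, hr₁, hr₂⟩ : ∃ r₁ > 0, ∀ y ∈ t, r₁ ≤ r₀ y := by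
    rcases t.eq_empty_or_nonempty with h | h
    · exact ⟨1, one_pos, fun x hx => by rw [h] at hx; simp at hx⟩
    · obtain ⟨x, hx, hx2⟩ := t.exists_min_image r₀ h
      exact ⟨r₀ x, hr₀ x (ht1 x hx), fun y hy => hx2 y hy⟩
  refine ⟨r₁, hr₁, fun y hy ρ h4 h5 => ?_⟩
  obtain ⟨x, hx, hx2⟩ := mem_iUnion₂.1 (ht2 hy)
  rw [if_pos (ht1 x hx)] at hx2
  exact h2 x (ht1 x hx) y (by rw [← Real.dist_eq]; exact hx2) ρ h4 (h5.trans_le (hr₂ x hx))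

/-- **row WALL**, the type may depend on the label -/
theorem wall_lab {m : ℝ} {Ψ : ℂ → ℂ} {S : Set ℝ} {Pt : ℝ → ℂ} {c k : ℝ → ℝ} {y₁ y₂ s s' : ℝ}
    (hB : CC.Base κ Λ b H Φ r e α p J F q Q e₁ c₀ R A P θ)
    (G : GW R A P e₁ n ε b₀ m Ψ S Pt c k y₁ y₂ s s')
    {S' : Set ℝ} {y₀ r' : ℝ} (hS : S' ⊆ S) (h0 : volume S' ≠ 0) (hr' : 0 < r')
    (hy1 : y₁ < y₀ - r') (hy2 : y₀ + r' < y₂)
    (hT : ∀ u ∈ S', TypeAt b R θ n u y₀ r' b ∨ TypeAt b R θ n u y₀ r' (-b)) :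
    CC.TopM b F q := by
  obtain ⟨⟨hn1, hn2⟩, hR1, hR2⟩ := G.rh hB
  have hb := hB.bs.b0
  obtain ⟨c', Λ', r₁, hc', hr₁, hdrop⟩ := G.drop
  obtain ⟨xj1, xj2⟩ := ext_MM (n := n) (b₀ := b₀) (ε := ε) hB
  obtain ⟨xk1, xk2⟩ := ext_MM (n := n - 1) (b₀ := b₀) (ε := ε) hB
  -- the gap between the first heights and `b₀`
  obtain ⟨g, hg, hgR⟩ : ∃ g > 0, ∀ u ∈ S, b₀ + g ≤ R u := by
    have hne : S.Nonempty := by
      by_contra h
      rw [not_nonempty_iff_eq_empty] at h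
      exact G.S0 (by rw [h]; exact measure_empty)
    obtain ⟨v, hv, hv2⟩ := G.Sc.exists_isMinOn hne G.cR
    refine ⟨R v - b₀, by linarith [G.bR v hv], fun u hu => ?_⟩
    have h1 : (Pt v).im ≤ (Pt u).im := hv2 hu
    rw [G.Pi u hu, G.Pi v hv] at h1
    linarith
  set δ : ℝ := (s - s') / 4 with hδ
  have hδ0 : 0 < δ := by rw [hδ]; linarith [G.ss]
  set c₁ : ℝ := min (c' / 2) 1 with hc₁
  have hc₁0 : 0 < c₁ := lt_min (by positivity) one_pos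
  have hc₁' : c₁ < c' := (min_le_left _ _).trans_lt (by linarith)
  have hc₁1 : c₁ ≤ 1 := min_le_right _ _
  set ρ : ℝ := min r' g with hρ
  have hρ0 : 0 < ρ := lt_min hr' hg
  have hρr : ρ ≤ r' := min_le_left _ _
  have hρg : ρ ≤ g := min_le_right _ _
  have hlow : ∀ u ∈ S', ∀ {x : ℝ}, R u - ρ < x → b₀ < x := by
    intro u hu x hx
    have := hgR u (hS hu)
    linarith
  have hWo : IsOpen (Wn R e₁ ε b₀ n) := (isOpen_Bn hB).inter (isOpen_Bn hB)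
  have hnε := G.nε
  have D : WD b y₀ ρ (c₁ * δ / 2) c₁ (s - δ) (s' + δ) b₀ ((Λ : ℂ) ^ 3) F q S' (fun u => R u) c
      (Wn R e₁ ε b₀ n) (MM R A P e₁ ε b₀ (n - 1)) (Th θ n)
      (fun z => gx b₀ (Ln A (n - 1)) (Bn R e₁ ε b₀ (n - 1)) z.1 z.2)
      (fun z => gx b₀ (Ln P (n - 1)) (Bn R e₁ ε b₀ (n - 1)) z.1 z.2)
      (Bn R e₁ ε b₀ n) (Ln A n) (Ln P n) := by
    refine ⟨hb, hρ0, hc₁0, ?_, ?_, hB.bs.dF, hB.bs.dq, ?_, ?_, ?_, hWo, ?_, ?_, hR2.dn.op, ?_, ?_,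
      ?_, ?_, ?_, ?_, ?_, dn_Bn hB, (jd_Ln hB hn1).1, (jd_Ln hB hn1).2, ?_, ?_, ?_⟩
    · have h1 : 2 * (c₁ * δ / 2) / c₁ = δ := by field_simp
      rw [h1]
      have : s - s' = 4 * δ := by rw [hδ]; ring
      linarith
    · have : (Λ : ℂ) ≠ 0 := by exact_mod_cast hB.bs.Λ0.ne'
      exact pow_ne_zero 3 this
    · intro z hz
      exact hB.bs.wr z hz
    · intro u hu
      obtain ⟨K, hK⟩ := G.cone
      obtain ⟨d, hd, h1⟩ := hK (c₁ * δ / 2) (by positivity)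
      refine ⟨d, hd, fun u' hu' => ?_⟩
      have h2 := h1 u (hS hu) ((u' : ℂ) - u) (by
        rw [← ofReal_sub, norm_real, Real.norm_eq_abs]; exact hu')
      have e0 : (u : ℂ) + ((u' : ℂ) - u) = (u' : ℂ) := by ring
      rw [e0, ← ofReal_sub, norm_real, Real.norm_eq_abs, ofReal_re, ofReal_im, abs_zero,
        mul_zero, sub_zero] at h2
      exact h2
    · intro u hu
      exact G.bR u (hS hu)
    · intro z hz
      have h1 := (hB.pc.an _ (Wn_Pd hB hnε (t := z.1) (w := z.2) hz)).differentiableAt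
      have h2 : DifferentiableAt ℂ (fun z : ℂ × ℂ => (z.1 + ((n : ℂ) - 1 / 2) * z.2, z.2)) z := by
        fun_prop
      exact (DifferentiableAt.comp z (f := fun z : ℂ × ℂ => (z.1 + ((n : ℂ) - 1 / 2) * z.2, z.2))
        h1 h2).differentiableWithinAt
    · intro u hu t ht1 ht2 ht3
      have hW : (t, (u : ℂ)) ∈ Wn R e₁ ε b₀ n := by
        have h1 : ∀ j : ℤ, (t, (u : ℂ)) ∈ Bn R e₁ ε b₀ j := fun j => ⟨hlow u hu ht2, by
          show t.im + j * (u : ℂ).im < R u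
          rw [ofReal_im, mul_zero, add_zero]; exact ht3, by
          show ‖(u : ℂ)‖ < e₁
          rw [norm_real, Real.norm_eq_abs]; exact G.Se u (hS hu), by
          show |(u : ℂ).im| < ε
          rw [ofReal_im, abs_zero]; exact G.ε0⟩
        exact ⟨h1 _, h1 _⟩
      have h2 := (rel_Wn hB hnε hW).1
      exact ⟨hW, (abs_lt.1 h2).1, (abs_lt.1 h2).2⟩
    · exact fun z hz => (xk1.jd z hz.1).mono (fun _ h => h.1)
    · exact fun z hz => (xk2.jd z hz.2).mono (fun _ h => h.2)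
    · exact fun z hz => Bn_sub_MM hB hn2 hz.2
    · rintro ⟨t, w⟩ hz
      have h1 := rel_Wn hB hnε hz
      have h2 := Bn_sub_MM (A := A) (P := P) hB hn2 hz.2
      simp only
      rw [xk1.eq (t, w) h2.1 hz.2, xk2.eq (t, w) h2.2 hz.2]
      exact h1.2.2.2
    · intro u hu
      have h1 := win_unif (M := MM R A P e₁ ε b₀ (n - 1)) (Λ₁ := 0) (hS hu) hc₁0
        (z₁ := y₀ - r') (z₂ := y₀ + r')
        (fun y hy => G.win u (hS hu) y (by linarith [hy.1]) (by linarith [hy.2]) δ hδ0)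
      obtain ⟨r₂, hr₂, h2⟩ := h1
      obtain ⟨δ₁, hδ₁, h3⟩ := of_win (M := MM R A P e₁ ε b₀ (n - 1)) (y₀ := y₀) (r := ρ) hc₁0 hc₁1
        (le_refl (0 : ℝ)) hr₂ (fun y σ hy h4 h5 => h2 y (by
          have := abs_lt.1 hy
          exact ⟨by linarith [this.1], by linarith [this.2]⟩) σ h4 h5)
      refine ⟨δ₁, hδ₁, fun t w a1 a2 a3 a4 a5 => ?_⟩
      rw [G.Pi u (hS hu)] at h3
      exact h3 t w a1 (hlow u hu a2) a3 a4 a5
    · intro u hu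
      obtain ⟨K₀, δ₁, hδ₁, h1⟩ := cone_Bn G (hS hu) (n - 1)
      exact ⟨K₀, δ₁, hδ₁, fun t w _ a2 a3 a4 => Bn_sub_MM hB hn2 (h1 t w (hlow u hu a2) a3 a4)⟩
    · intro t w hz hw
      have h1 := jac_MM hB hn2 hz
      have h2 : J w ≠ 0 := hB.en.ctx.ln.Jne w ((label_lt hB hz).1.trans_le hB.ee) (by
        intro h; rw [h] at hw; simp at hw)
      rw [← h1] at h2
      exact h2
    · intro u hu
      obtain ⟨K₀, δ₁, hδ₁, h1⟩ := cone_Bn G (hS hu) n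
      exact ⟨K₀, δ₁, hδ₁, fun t w _ a2 a3 a4 => Bn_sub_MM hB hn1 (h1 t w (hlow u hu a2) a3 a4)⟩
    · rintro ⟨t, w⟩ hz
      have h1 := rel_Wn hB hnε hz
      have h2 := Bn_sub_MM (A := A) (P := P) hB hn2 hz.2
      have h3 := Bn_sub_MM (A := A) (P := P) hB hn1 hz.1
      simp only
      rw [xk1.eq (t, w) h2.1 hz.2, xk2.eq (t, w) h2.2 hz.2, xj1.eq (t, w) h3.1 hz.1,
        xj2.eq (t, w) h3.2 hz.1]
      exact ⟨h1.2.1, h1.2.2.1⟩
    · intro u hu x hx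
      have hx' := abs_lt.1 hx
      have hxy : y₁ < x ∧ x < y₂ := ⟨by linarith [hx'.1], by linarith [hx'.2]⟩
      have h1 := hdrop u (hS hu) x hxy.1 hxy.2
      have hΛ : 0 ≤ Λ' := by
        by_contra hneg
        push Not at hneg
        refine h1 (r₁ / 2) (by positivity) (by linarith) ?_
        rintro ⟨t, w⟩ ⟨-, -, -, a4, -, -⟩
        exfalso
        have := abs_nonneg (t.re - x)
        have h2 : Λ' * (r₁ / 2) < 0 := mul_neg_of_neg_of_pos hneg (by positivity)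
        linarith
      have h2 := not_of_win (s₂ := s' + δ) hc₁' hc' (by linarith) hc₁0 hΛ hr₁ h1
      rw [G.Pi u (hS hu)] at h2
      exact h2
  refine D.topM (fun z hz => hB.bs.Fc z hz) (fun z hz => hB.bs.qc z hz) h0 ?_
  intro u hu
  rcases hT u hu with h | h
  · left
    filter_upwards [h] with x hx h1
    exact hx (h1.trans_le hρr)
  · right
    filter_upwards [h] with x hx h1
    exact hx (h1.trans_le hρr)

/-- **row WALL** -/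
theorem wall : Wall := by
  intro κ Λ b H Φ r e α p J F q Q e₁ c₀ R A P θ he hc hB n ε b₀ m Ψ S Pt c k y₁ y₂ s s' G S' y₀ r'
    h1 h2 h3 h4 h5 h6
  refine wall_lab hB G h1 h2 h3 h4 h5 fun u hu => ?_
  rcases h6 with h | h
  · left
    have := h u hu
    rwa [one_mul] at this
  · right
    have := h u hu
    rwa [neg_one_mul] at this

end Vale.Agent.P097.H6
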