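import Vale.Agent.P097.H6.WallH

/-!
# P097 : case [c], restriction of the world to the labels `w ≠ 0`
-/

set_option linter.all false

open Complex Metric Filter Topology Set MeasureTheory
open scoped ComplexConjugate

namespace Vale.Agent.P097.H6

open Vale.Agent.P097 Vale.Agent.P097.TA Vale.Agent.P097.H202 Vale.Agent.P097.SC
open Vale.Agent.P097.H85 Vale.Agent.P097.H929 Vale.Agent.P097.H543 Vale.Agent.P097.H456.C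

/-- the labels `w ≠ 0` -/
def Wne : Set (ℂ × ℂ) := {z | z.2 ≠ 0}

theorem isOpen_Wne : IsOpen Wne := isOpen_ne.preimage continuous_snd

theorem Dn.restr {b : ℝ} {M : Set (ℂ × ℂ)} (h : Dn b M) : Dn b (M ∩ Wne) :=
  ⟨h.op.inter isOpen_Wne, fun t w hz => h.low t w hz.1,
    fun t w s hz h1 h2 => ⟨h.down t w s hz.1 h1 h2, hz.2⟩⟩

theorem ne_of_im {w : ℂ} (h : 0 < w.im) : w ≠ 0 := by
  intro h0
  rw [h0] at h
  simp at h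

theorem Win.ne {b u R₀ c y r s c₀ Λ : ℝ} (hc : 0 < c₀) (hr : 0 < r) :
    Win b u R₀ c y r s c₀ Λ ⊆ Wne := by
  rintro ⟨t, w⟩ ⟨-, h2, -⟩
  exact ne_of_im (lt_of_lt_of_le (mul_pos hc hr) h2)

theorem Win.restr {b u R₀ c y r s c₀ Λ : ℝ} {M : Set (ℂ × ℂ)} (hc : 0 < c₀) (hr : 0 < r) :
    Win b u R₀ c y r s c₀ Λ ⊆ M ∩ Wne ↔ Win b u R₀ c y r s c₀ Λ ⊆ M :=
  ⟨fun h z hz => (h hz).1, fun h z hz => ⟨h hz, Win.ne hc hr hz⟩⟩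

theorem RegB.restr {M : Set (ℂ × ℂ)} {b : ℝ} {A : Set ℝ} {P : ℝ → ℂ} {c : ℝ → ℝ} {y u s : ℝ}
    (h : RegB M b A P c y u s) : RegB (M ∩ Wne) b A P c y u s := by
  obtain ⟨d, hd, h⟩ := h
  refine ⟨d, hd, fun c₂ hc₂ Λ₂ => ?_⟩
  obtain ⟨r₀, hr₀, h1⟩ := h c₂ hc₂ Λ₂
  exact ⟨r₀, hr₀, fun u' hu' hd' y' hy' r' hr' hr'' => (Win.restr hc₂ hr').2
    (h1 u' hu' hd' y' hy' r' hr' hr'')⟩

theorem Cmp.restr {M : Set (ℂ × ℂ)} {b m : ℝ} {Ψ : ℂ → ℂ} {u ρ : ℝ} {P₀ : ℂ} {c k c₀ ε : ℝ}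
    (h : Cmp M b m Ψ u ρ P₀ c k c₀ ε) : Cmp (M ∩ Wne) b m Ψ u ρ P₀ c k c₀ ε :=
  ⟨h.hol, h.bdd, fun t w h1 h2 h3 h4 h5 => ⟨h.base t w h1 h2 h3 h4 h5, ne_of_im h2⟩, h.nt⟩

theorem CmpU.restr {M : Set (ℂ × ℂ)} {b m : ℝ} {Ψ : ℂ → ℂ} {A : Set ℝ} {P : ℝ → ℂ}
    {c k : ℝ → ℝ} (h : CmpU M b m Ψ A P c k) : CmpU (M ∩ Wne) b m Ψ A P c k := by
  refine ⟨h.bd, fun c₀ hc₀ ε hε => ?_⟩
  obtain ⟨ρ, hρ, h1⟩ := h.cmp c₀ hc₀ ε hε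
  exact ⟨ρ, hρ, fun u hu => Cmp.restr (h1 u hu)⟩

/-- `thin`'s points are not on `w = 0` -/
theorem Tch.restr {M : Set (ℂ × ℂ)} {b : ℝ} {A : Set ℝ} {P : ℝ → ℂ} {c : ℝ → ℝ} {y₀ u₀ σ : ℝ}
    (h : Tch M b A P c y₀ u₀ σ) : Tch (M ∩ Wne) b A P c y₀ u₀ σ := by
  intro η h1 h2
  obtain ⟨d, hd, r₀, hr₀, h3⟩ := h η h1 h2
  refine ⟨d, hd, r₀, hr₀, fun u hu a1 yc a2 hh a3 a4 x₀ a5 => ?_⟩
  obtain ⟨t, w, b1, b2, b3, b4, b5, b6⟩ := h3 u hu a1 yc a2 hh a3 a4 x₀ a5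
  exact ⟨t, w, b1, b2, b3, b4, b5, fun hm => b6 hm.1⟩

theorem Lay.restr {Mj Mk : Set (ℂ × ℂ)} {b : ℝ} {A : Set ℝ} {P : ℝ → ℂ} {c : ℝ → ℝ}
    {y₀ u₀ σ s : ℝ} (h : Lay Mj Mk b A P c y₀ u₀ σ s) :
    Lay (Mj ∩ Wne) (Mk ∩ Wne) b A P c y₀ u₀ σ s :=
  ⟨Dn.restr h.dn, h.u0, h.cR, h.cc, h.hb, fun δ hδ => RegB.restr (h.regj δ hδ),
    fun δ hδ => RegB.restr (h.regk δ hδ), Tch.restr h.tch⟩

variable {κ Λ b : ℝ} {H Φ : ℂ → ℂ} {r e : ℝ} {α p : ℂ → ℂ → ℂ} {J F q Q : ℂ → ℂ}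
  {e₁ c₀ : ℝ} {R : ℂ → ℝ} {A P θ : ℂ × ℂ → ℂ} {n : ℤ} {ε b₀ : ℝ}

/-- **two-sided cones, uniform on the labels, in the native domain of both lines, `w ≠ 0`** -/
theorem GW.coneB {m : ℝ} {Ψ : ℂ → ℂ} {S : Set ℝ} {Pt : ℝ → ℂ} {c k : ℝ → ℝ} {y₁ y₂ s s' : ℝ}
    (G : GW R A P e₁ n ε b₀ m Ψ S Pt c k y₁ y₂ s s') :
    ∃ K > 0, ∀ η > 0, ∃ δ > 0, ∀ u ∈ S, ∀ v : ℂ, ‖v‖ < δ → ∀ t : ℂ, b₀ < t.im →
      t.im < (Pt u).im + c u * v.re - K * |v.im| - η * ‖v‖ → (t, (u : ℂ) + v) ∈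
        Wn R e₁ ε b₀ n ∩ Wne := by
  obtain ⟨K, hK⟩ := G.cone
  have hne : S.Nonempty := by
    by_contra h
    rw [not_nonempty_iff_eq_empty] at h
    exact G.S0 (by rw [h]; exact measure_empty)
  -- distance to `0` and to `± e₁`
  obtain ⟨v₁, hv₁, h₁⟩ := G.Sc.exists_isMinOn hne (f := fun u : ℝ => |u|) continuous_abs.continuousOn
  obtain ⟨v₂, hv₂, h₂⟩ := G.Sc.exists_isMaxOn hne (f := fun u : ℝ => |u|) continuous_abs.continuousOn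
  have hv₁0 : 0 < |v₁| := by
    rw [abs_pos]
    intro h
    have := G.irr v₁ hv₁
    rw [h] at this
    exact this ⟨0, by simp⟩
  have hv₂e := G.Se v₂ hv₂
  refine ⟨|K| + |(n : ℝ)| + 1, by positivity, fun η hη => ?_⟩
  obtain ⟨δ, hδ, h3⟩ := hK η hη
  refine ⟨min (min δ ε) (min |v₁| (e₁ - |v₂|)),
    lt_min (lt_min hδ G.ε0) (lt_min hv₁0 (by linarith)), fun u hu v hv t ht1 ht2 => ?_⟩
  have k1 := hv.trans_le ((min_le_left _ _).trans (min_le_left _ _))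
  have k2 := hv.trans_le ((min_le_left _ _).trans (min_le_right _ _))
  have k3 := hv.trans_le ((min_le_right _ _).trans (min_le_left _ _))
  have k4 := hv.trans_le ((min_le_right _ _).trans (min_le_right _ _))
  have h4 := h3 u hu v k1
  rw [G.Pi u hu] at ht2
  have e1 : ((u : ℂ) + v).im = v.im := by simp
  have a0 := abs_nonneg v.im
  have a1 : K * |v.im| ≤ |K| * |v.im| := mul_le_mul_of_nonneg_right (le_abs_self K) a0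
  have a2 : ∀ j : ℤ, |(j : ℝ)| ≤ |(n : ℝ)| + 1 → (j : ℝ) * v.im ≤ (|(n : ℝ)| + 1) * |v.im| := by
    intro j hj
    refine (le_abs_self _).trans ?_
    rw [abs_mul]
    exact mul_le_mul_of_nonneg_right hj a0
  have e2 : (|K| + |(n : ℝ)| + 1) * |v.im| = |K| * |v.im| + (|(n : ℝ)| + 1) * |v.im| := by ring
  rw [e2] at ht2
  have hnorm : ‖(u : ℂ) + v‖ < e₁ := by
    have h5 := norm_add_le (u : ℂ) v
    rw [norm_real, Real.norm_eq_abs] at h5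
    have h6 : |u| ≤ |v₂| := h₂ hu
    linarith
  have him : |((u : ℂ) + v).im| < ε := by
    rw [e1]
    exact (Complex.abs_im_le_norm v).trans_lt k2
  have hB : ∀ j : ℤ, |(j : ℝ)| ≤ |(n : ℝ)| + 1 → (t, (u : ℂ) + v) ∈ Bn R e₁ ε b₀ j := by
    intro j hj
    refine ⟨ht1, ?_, hnorm, him⟩
    show t.im + j * ((u : ℂ) + v).im < R ((u : ℂ) + v)
    rw [e1]
    linarith [a2 j hj]
  refine ⟨⟨hB n (by linarith), hB (n - 1) ?_⟩, ?_⟩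
  · push_cast
    have := abs_sub (n : ℝ) 1
    rwa [abs_one] at this
  · show (u : ℂ) + v ≠ 0
    intro h0
    have h5 : (v : ℂ) = -(u : ℂ) := by linear_combination h0
    rw [h5, norm_neg, norm_real, Real.norm_eq_abs] at k3
    have h6 : |v₁| ≤ |u| := h₁ hu
    linarith

/-- the Jacobian in `fderiv` form -/
theorem area_MM (hB : CC.Base κ Λ b H Φ r e α p J F q Q e₁ c₀ R A P θ)
    (hn : |(n : ℝ)| * ε ≤ b₀) {z : ℂ × ℂ} (h : z ∈ MM R A P e₁ ε b₀ n) :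
    fderiv ℂ (fun z : ℂ × ℂ => gx b₀ (Ln A n) (Bn R e₁ ε b₀ n) z.1 z.2) z (1, 0) *
        fderiv ℂ (fun z : ℂ × ℂ => gx b₀ (Ln P n) (Bn R e₁ ε b₀ n) z.1 z.2) z (0, 1) -
      fderiv ℂ (fun z : ℂ × ℂ => gx b₀ (Ln A n) (Bn R e₁ ε b₀ n) z.1 z.2) z (0, 1) *
        fderiv ℂ (fun z : ℂ × ℂ => gx b₀ (Ln P n) (Bn R e₁ ε b₀ n) z.1 z.2) z (1, 0) = J z.2 := by
  obtain ⟨x1, x2⟩ := ext_MM (n := n) (b₀ := b₀) (ε := ε) hB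
  have h1 := H830.CD.br_eq_fderiv
    ((Hol.analyticOnNhd_of_differentiableOn x1.dn.op x1.jd) z h.1)
    ((Hol.analyticOnNhd_of_differentiableOn x2.dn.op x2.jd) z h.2)
  rw [← h1]
  exact jac_MM hB hn (t := z.1) (w := z.2) h

end Vale.Agent.P097.H6
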