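import Vale.Agent.P097.H128.Sector.Defs2
import Vale.Agent.P097.H402.Main0
import Vale.Agent.P097.H402.StepP
import Vale.Agent.P097.H202.PenA7
import Vale.Agent.P097.H438.Final
import Vale.Agent.P097.H402.Alg.Bridge

/-!
# P097 : top level of the full answer (skeleton)

`CaseI`, `CaseC`, `CaseD` are the Props of the blocks; `main_of` and `literal_of` the assembly.
-/

set_option linter.all false

open Complex Metric Filter Topology Set
open scoped ComplexConjugate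

namespace Vale.Agent.P097.H6

open Vale.Agent.P097 Vale.Agent.P097.TA Vale.Agent.P097.H202 Vale.Agent.P097.SC

/-- a table integrable near the boundary, with all the data of Theorem A -/
structure Wd (h : ℝ → ℝ) (η κ ρ Λ L : ℝ) (H HH lam Φ : ℂ → ℂ) (l φ : ℝ → ℝ) (r e : ℝ)
    (α p : ℂ → ℂ → ℂ) (J : ℂ → ℂ) : Prop where
  η0 : 0 < η
  st : SmoothTable h
  col : Collar h η
  ld : LD h κ ρ Λ L H HH lam Φ l φ
  ln : Lines κ Λ H Φ r e α p J

/-- the curve `x ↦ (Φ, H ∘ Φ)` is holomorphic on `U`, with extension `(Φb, qb)` -/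
structure HolOn (H Φ : ℂ → ℂ) (U : Set ℂ) (Φb qb : ℂ → ℂ) : Prop where
  dΦ : DifferentiableOn ℂ Φb U
  dq : DifferentiableOn ℂ qb U
  re : ∀ x : ℝ, Φb x = Φ x ∧ qb x = H (Φ x)

/-- one point of the top line `Im x = b` across which the curve extends meromorphically -/
def TopPt (b : ℝ) (Φb qb : ℂ → ℂ) : Prop :=
  ∃ (a ρ : ℝ) (Z' q' : ℂ → ℂ), 0 < ρ ∧ MeromorphicOn Z' (ball ((a : ℂ) + b * I) ρ) ∧
    MeromorphicOn q' (ball ((a : ℂ) + b * I) ρ) ∧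
    ∀ z ∈ ball ((a : ℂ) + b * I) ρ, z.im < b → Z' z = exp (I * Φb z) ∧ q' z = qb z

/-- **CASE I** : an isotropic point or a pole in a strip of meromorphy implies an ellipse -/
def CaseI : Prop := ∀ {h : ℝ → ℝ} {η κ ρ Λ L : ℝ} {H HH lam Φ : ℂ → ℂ} {l φ : ℝ → ℝ} {r e : ℝ}
    {α p : ℂ → ℂ → ℂ} {J : ℂ → ℂ}, Wd h η κ ρ Λ L H HH lam Φ l φ r e α p J →
  ∀ {b : ℝ}, 0 < b → MerStrip H Φ b → H407.IsEllipse h ∨ ∃ Φb qb, HolOn H Φ (Str b) Φb qb

/-- **CASE [c]** : natural boundary `Im x = b` -/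
def CaseC : Prop := ∀ {h : ℝ → ℝ} {η κ ρ Λ L : ℝ} {H HH lam Φ : ℂ → ℂ} {l φ : ℝ → ℝ} {r e : ℝ}
    {α p : ℂ → ℂ → ℂ} {J : ℂ → ℂ}, Wd h η κ ρ Λ L H HH lam Φ l φ r e α p J →
  ¬ H456.Fct.HAlg κ H → ∀ {b : ℝ} {Φb qb : ℂ → ℂ}, 0 < b → HolOn H Φ (Str b) Φb qb →
  ¬ TopPt b Φb qb → H407.IsEllipse h

/-- **CASE [a] + [d]** : the curve is entire -/
def CaseD : Prop := ∀ {h : ℝ → ℝ} {η κ ρ Λ L : ℝ} {H HH lam Φ : ℂ → ℂ} {l φ : ℝ → ℝ} {r e : ℝ}
    {α p : ℂ → ℂ → ℂ} {J : ℂ → ℂ}, Wd h η κ ρ Λ L H HH lam Φ l φ r e α p J →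
  ¬ H456.Fct.HAlg κ H → ∀ {Φb qb : ℂ → ℂ}, HolOn H Φ univ Φb qb → H407.IsEllipse h

/-! ### Theorem A -/

theorem wd_of_collar {h : ℝ → ℝ} {η : ℝ} (h0 : 0 < η) (Hs : SmoothTable h) (hC : Collar h η) :
    ∃ (κ ρ Λ L : ℝ) (H HH lam Φ : ℂ → ℂ) (l φ : ℝ → ℝ) (r e : ℝ) (α p : ℂ → ℂ → ℂ) (J : ℂ → ℂ),
      Wd h η κ ρ Λ L H HH lam Φ l φ r e α p J := by
  obtain ⟨κ, ρ, Λ, L, Hh, HH, lam, Φ, l, φ, ρ', M, L', r, e, b, θ, T, hρρ, hG, hb, F⟩ :=
    H402.main_cx_of H402.famEx Hs h0 (Or.inl hC)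
  have F' := Fam_restrict F (lt_min F.hr T.ρ0) (min_le_left r ρ)
  obtain ⟨r₁, e₁, hr₁, he₁, A, hθ⟩ := exists_AL T hG.hρ hb F'
  obtain ⟨r₂, e₂, J, hr₂, he₂, Ln, hJ⟩ := exists_lines T (hr₁.trans (min_le_right _ _)) A
  exact ⟨κ, ρ, Λ, L, Hh, HH, lam, Φ, l, φ, r₂, e₂, _, _, J, h0, Hs, hC, T, Ln⟩

/-! ### gluing of the extensions -/

theorem str_mono {a b : ℝ} (h : a ≤ b) : Str a ⊆ Str b := fun _ hz => lt_of_lt_of_le hz h

theorem real_mem_str {b : ℝ} (hb : 0 < b) (x : ℝ) : (x : ℂ) ∈ Str b := by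
  show |(x : ℂ).im| < b
  rw [ofReal_im, abs_zero]
  exact hb

/-- identity theorem on a strip, from the real line -/
theorem eqOn_str {b : ℝ} (hb : 0 < b) {f g : ℂ → ℂ} (hf : DifferentiableOn ℂ f (Str b))
    (hg : DifferentiableOn ℂ g (Str b)) (h : ∀ x : ℝ, f x = g x) : EqOn f g (Str b) := by
  have hf' : AnalyticOnNhd ℂ f (Str b) := hf.analyticOnNhd (isOpen_Str b)
  have hg' : AnalyticOnNhd ℂ g (Str b) := hg.analyticOnNhd (isOpen_Str b)
  refine hf'.eqOn_of_preconnected_of_frequently_eq hg' (convex_Str b).isPreconnected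
    (real_mem_str hb 0) ?_
  have h1 : Tendsto (fun n : ℕ => (((1 : ℝ) / (n + 1) : ℝ) : ℂ)) atTop (𝓝[≠] ((0 : ℝ) : ℂ)) := by
    refine tendsto_nhdsWithin_iff.2 ⟨?_, Eventually.of_forall fun n => ?_⟩
    · exact (continuous_ofReal.tendsto 0).comp tendsto_one_div_add_atTop_nhds_zero_nat
    · show (((1 : ℝ) / (n + 1) : ℝ) : ℂ) ≠ ((0 : ℝ) : ℂ)
      intro hh
      have h2 := ofReal_injective hh
      have h3 : (0 : ℝ) < 1 / ((n : ℝ) + 1) := by positivity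
      linarith
  exact h1.frequently (Eventually.of_forall fun n => h _).frequently

/-- extensions to `Str b` for all `b` in a set `S` glue to the union -/
theorem glue {H Φ : ℂ → ℂ} {S : Set ℝ} (hS : ∀ b ∈ S, 0 < b)
    (hh : ∀ b ∈ S, ∃ Φb qb, HolOn H Φ (Str b) Φb qb) (hne : S.Nonempty) {U : Set ℂ}
    (hU : ∀ z ∈ U, ∃ b ∈ S, z ∈ Str b) : ∃ Φb qb, HolOn H Φ U Φb qb := by
  classical
  choose! F G hFG using hh
  obtain ⟨b0, hb0⟩ := hne
  have key : ∀ b ∈ S, ∀ b' ∈ S, ∀ z, z ∈ Str b → z ∈ Str b' → F b z = F b' z ∧ G b z = G b' z := by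
    intro b hb b' hb' z hz hz'
    have hm : 0 < min b b' := lt_min (hS b hb) (hS b' hb')
    have hzm : z ∈ Str (min b b') := by
      show |z.im| < min b b'
      exact lt_min hz hz'
    have A := hFG b hb
    have B := hFG b' hb'
    exact ⟨eqOn_str hm (A.dΦ.mono (str_mono (min_le_left _ _))) (B.dΦ.mono (str_mono
      (min_le_right _ _))) (fun x => by rw [(A.re x).1, (B.re x).1]) hzm,
      eqOn_str hm (A.dq.mono (str_mono (min_le_left _ _))) (B.dq.mono (str_mono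
      (min_le_right _ _))) (fun x => by rw [(A.re x).2, (B.re x).2]) hzm⟩
  set β : ℂ → ℝ := fun z => if h : ∃ b ∈ S, z ∈ Str b then h.choose else b0 with hβ
  have hβ1 : ∀ z b, b ∈ S → z ∈ Str b → β z ∈ S ∧ z ∈ Str (β z) := by
    intro z b hb hz
    have h : ∃ b ∈ S, z ∈ Str b := ⟨b, hb, hz⟩
    simp only [hβ, dif_pos h]
    exact h.choose_spec
  have loc : ∀ b ∈ S, EqOn (fun z => F (β z) z) (F b) (Str b) ∧
      EqOn (fun z => G (β z) z) (G b) (Str b) := by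
    intro b hb
    refine ⟨fun z hz => ?_, fun z hz => ?_⟩
    · exact (key _ (hβ1 z b hb hz).1 b hb z (hβ1 z b hb hz).2 hz).1
    · exact (key _ (hβ1 z b hb hz).1 b hb z (hβ1 z b hb hz).2 hz).2
  refine ⟨fun z => F (β z) z, fun z => G (β z) z, ?_, ?_, ?_⟩
  · intro z hz
    obtain ⟨b, hb, hzb⟩ := hU z hz
    exact ((((hFG b hb).dΦ.congr (loc b hb).1).differentiableAt
      ((isOpen_Str b).mem_nhds hzb))).differentiableWithinAt
  · intro z hz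
    obtain ⟨b, hb, hzb⟩ := hU z hz
    exact ((((hFG b hb).dq.congr (loc b hb).2).differentiableAt
      ((isOpen_Str b).mem_nhds hzb))).differentiableWithinAt
  · intro x
    have h1 := real_mem_str (hS b0 hb0) x
    have h2 := loc b0 hb0
    have e1 : F (β x) x = F b0 x := h2.1 h1
    have e2 : G (β x) x = G b0 x := h2.2 h1
    show F (β x) x = Φ x ∧ G (β x) x = H (Φ x)
    rw [e1, e2]
    exact (hFG b0 hb0).re x

theorem HolOn.mer {H Φ Φb qb : ℂ → ℂ} {b : ℝ} (hh : HolOn H Φ (Str b) Φb qb) :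
    MerStrip H Φ b := by
  refine ⟨fun z => exp (I * Φb z), qb, ?_, ?_, fun x => ⟨?_, (hh.re x).2⟩⟩
  · intro z hz
    have h1 : AnalyticAt ℂ Φb z := hh.dΦ.analyticOnNhd (isOpen_Str b) z hz
    exact ((analyticAt_const.mul h1).cexp).meromorphicAt
  · intro z hz
    exact (hh.dq.analyticOnNhd (isOpen_Str b) z hz).meromorphicAt
  · show exp (I * Φb x) = exp (I * Φ x)
    rw [(hh.re x).1]

/-- Theorem A gives a first strip -/
theorem hol0 {h : ℝ → ℝ} {κ ρ Λ L : ℝ} {H HH lam Φ : ℂ → ℂ} {l φ : ℝ → ℝ}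
    (T : LD h κ ρ Λ L H HH lam Φ l φ) : HolOn H Φ (Str ρ) Φ (fun z => H (Φ z)) := by
  refine ⟨fun z hz => (T.dΦ z hz).differentiableAt.differentiableWithinAt, ?_, fun x => ⟨rfl, rfl⟩⟩
  have hκ := T.κ0
  exact T.dH.comp (fun z hz => (T.dΦ z hz).differentiableAt.differentiableWithinAt)
    (fun z hz => str_mono (by linarith) (T.Φm z hz))

/-! ### assembly -/

/-- the main theorem for support functions, from the blocks -/
theorem main_of (fct : H456.Fct.FCT) (alg : Alg.PALG) (top : SC.Top) (c1 : CaseI) (cC : CaseC)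
    (cD : CaseD) {h : ℝ → ℝ} {η : ℝ} (Hs : SmoothTable h) (h0 : 0 < η) (hC : Collar h η) :
    H407.IsEllipse h := by
  obtain ⟨κ, ρ, Λ, L, H, HH, lam, Φ, l, φ, r, e, α, p, J, W⟩ := wd_of_collar h0 Hs hC
  by_cases hA : H456.Fct.HAlg κ H
  · exact Alg.ellipse_of_hAlg alg h0 Hs (Or.inl hC) W.ld.κ0 W.ld.Hr hA
  by_contra hE
  set S : Set ℝ := {b | 0 < b ∧ ∃ Φb qb, HolOn H Φ (Str b) Φb qb} with hS
  have hρ : ρ ∈ S := ⟨W.ld.ρ0, _, _, hol0 W.ld⟩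
  have mer : ∀ b, 0 < b → MerStrip H Φ b → b ∈ S := fun b hb hm =>
    ⟨hb, (c1 W hb hm).resolve_left hE⟩
  by_cases hbd : BddAbove S
  · set b := sSup S with hb
    have hρb : ρ ≤ b := le_csSup hbd hρ
    have hb0 : 0 < b := lt_of_lt_of_le W.ld.ρ0 hρb
    obtain ⟨Φb, qb, hh⟩ := glue (H := H) (Φ := Φ) (S := S) (fun _ hx => hx.1)
      (fun _ hx => hx.2) ⟨ρ, hρ⟩ (U := Str b) (by
        intro z hz
        obtain ⟨b', hb', h1⟩ := exists_lt_of_lt_csSup ⟨ρ, hρ⟩ (show |z.im| < sSup S from hz)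
        exact ⟨b', hb', h1⟩)
    by_cases ht : TopPt b Φb qb
    · obtain ⟨ε, hε, hm⟩ := top fct ⟨⟨h, ρ, L, HH, lam, l, φ, W.ld⟩, W.ln⟩ hA hb0 hh.dΦ hh.dq hh.re ht
      have h1 := le_csSup hbd (mer (b + ε) (by linarith) hm)
      linarith
    · exact hE (cC W hA hb0 hh ht)
  · obtain ⟨Φb, qb, hh⟩ := glue (H := H) (Φ := Φ) (S := S) (fun _ hx => hx.1)
      (fun _ hx => hx.2) ⟨ρ, hρ⟩ (U := univ) (by
        intro z _
        obtain ⟨b', hb', h1⟩ := not_bddAbove_iff.1 hbd |z.im|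
        exact ⟨b', hb', h1⟩)
    exact hE (cD W hA hh)

/-- the literal form, from the blocks -/
theorem literal_of (fct : H456.Fct.FCT) (alg : Alg.PALG) (top : SC.Top) (c1 : CaseI) (cC : CaseC)
    (cD : CaseD) (B : H438.Table) (hB : B.IntegrableNearBoundary) : H438.EllipseDomain B.Ω := by
  refine H438.literal_of_collar (fun h η Hs h0 hC => ?_) B hB
  obtain ⟨a, b, φ, p, q, ha, hb, e⟩ := main_of fct alg top c1 cC cD Hs h0 hC
  exact ⟨a, b, φ, p, q, ha, hb, fun ψ => congrFun e ψ⟩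

end Vale.Agent.P097.H6
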