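import Vale.Agent.P097.H6.Dich
import Vale.Agent.P097.H531.CD.Main
import Vale.Agent.P097.H710.RowS
import Vale.Agent.P097.H710.RowB
import Vale.Agent.P097.H710.RowY1
import Vale.Agent.P097.H967.RowL
import Vale.Agent.P097.H690.LD.RowC
import Vale.Agent.P097.H320.RowF
import Vale.Agent.P097.H320.RowTC
import Vale.Agent.P097.H324.CD.RowP
import Vale.Agent.P097.H456.Sp.RowSp
import Vale.Agent.P097.H456.Edge.Lift

/-!
# P097 : case [d] is closed; a natural boundary is the only remaining possibility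
-/

set_option linter.all false

open Complex Metric Filter Topology Set
open scoped ComplexConjugate

namespace Vale.Agent.P097.H6

open Vale.Agent.P097 Vale.Agent.P097.TA Vale.Agent.P097.H202 Vale.Agent.P097.SC

/-- **CASE [a] + [d]** -/
theorem caseD : CaseD := by
  intro h η κ ρ Λ L H HH lam Φ l φ r e α p J W hna Φb qb hO
  have dΦ : Differentiable ℂ Φb := differentiableOn_univ.1 hO.dΦ
  have dq : Differentiable ℂ qb := differentiableOn_univ.1 hO.dq
  have E : CD.En κ Λ H Φ r e α p J Φb qb :=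
    ⟨⟨⟨h, ρ, L, HH, lam, l, φ, W.ld⟩, W.ln⟩, hna, dΦ, dq, hO.re⟩
  exact CD.caseD_of H710.rowB SC.secE H710.rowY1 (H324.CD.rowP H456.Edge.rowLift) H710.rowS
    H967.RowL.rowL H690.LD.rowC H320.RF.rowF (H456.Sp.rowSp' H456.Fct.fct) H320.TCs.rowTC
    W.ld W.ln E

/-- top level: everything except the natural boundary -/
theorem literal_c (hc : CaseC) (B : H438.Table) (hB : B.IntegrableNearBoundary) :
    H438.EllipseDomain B.Ω := literal_cd hc caseD B hB

/-- **natural boundary**, support functions -/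
theorem natb {h : ℝ → ℝ} {η : ℝ} (h0 : 0 < η) (Hs : SmoothTable h)
    (hL : Collar h η ∨ H407.Leaves h η) (hE : ¬ H407.IsEllipse h) :
    ∃ (Λ : ℝ) (φ : ℝ → ℝ), LazAngle h Λ φ ∧
      ∃ (b : ℝ) (F G : ℂ → ℂ), 0 < b ∧ Ext {z | |z.im| < b} φ (fun x => h (φ x)) F G ∧
        NatBd b F G := by
  obtain ⟨η', hη', hc⟩ := Alg.collar_of h0 Hs hL
  obtain ⟨κ, ρ, Λ, L, H, HH, lam, Φ, l, φ, r, e, α, p, J, W⟩ := wd_of_collar hη' Hs hc
  refine ⟨Λ, φ, lazAngle_of W.ld, ?_⟩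
  rcases (tri W hE).2 with ⟨Φb, qb, h1⟩ | ⟨b, Φb, qb, hb, h1, h2⟩
  · exact absurd (caseD W (tri W hE).1 h1) hE
  · exact ⟨b, Φb, qb, hb, ext_of W.ld h1, natBd_of h2⟩

/-- literal form -/
theorem natb_table (B : H438.Table) (hB : B.IntegrableNearBoundary)
    (hE : ¬ H438.EllipseDomain B.Ω) :
    ∃ (Λ : ℝ) (φ : ℝ → ℝ), LazAngle (H536.supp B.Ω) Λ φ ∧
      ∃ (b : ℝ) (F G : ℂ → ℂ), 0 < b ∧
        Ext {z | |z.im| < b} φ (fun x => H536.supp B.Ω (φ x)) F G ∧ NatBd b F G := by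
  obtain ⟨η, hη, hc⟩ := B.collar_of_integrable hB
  have e : H536.supp B.Ω = B.hs := funext (H536.supp_eq B)
  rw [e]
  refine natb hη B.hs_table (Or.inl hc) fun h1 => hE ?_
  obtain ⟨a, b, φ, p, q, ha, hb, h⟩ := h1
  exact B.ellipse_of_support ha hb fun ψ => congrFun h ψ

end Vale.Agent.P097.H6
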