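import Vale.Agent.P097.H6.Skel
import Vale.Agent.P097.H898.CiJ

/-! # P097 : Case I of the top level -/

set_option linter.all false

namespace Vale.Agent.P097.H6

open Vale.Agent.P097 Vale.Agent.P097.SC

theorem caseI : CaseI := by
  intro h η κ ρ Λ L H HH lam Φ l φ r e α p J W b hb M
  rcases H898.caseI_main W.ld W.st W.η0 W.col hb M with h1 | ⟨Φb, qb, h1, h2, h3, -⟩
  · exact Or.inl h1
  · exact Or.inr ⟨Φb, qb, h1, h2, h3⟩

end Vale.Agent.P097.H6
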