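import Vale.Agent.P097.H6.CaseI
import Vale.Agent.P097.H456.Fct.Main
import Vale.Agent.P097.H128.Sector.Top3
import Vale.Agent.P097.H402.Alg.PAlg

/-!
# P097 : natural boundary or entire curve
-/

set_option linter.all false

open Complex Metric Filter Topology Set
open scoped ComplexConjugate

namespace Vale.Agent.P097.H6

open Vale.Agent.P097 Vale.Agent.P097.TA Vale.Agent.P097.H202 Vale.Agent.P097.SC

/-- the main theorem for support functions, from the two remaining blocks -/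
theorem main_cd (cC : CaseC) (cD : CaseD) {h : ℝ → ℝ} {η : ℝ} (Hs : SmoothTable h) (h0 : 0 < η)
    (hC : Collar h η) : H407.IsEllipse h :=
  main_of H456.Fct.fct Alg.palg_main SC.top caseI cC cD Hs h0 hC

/-- the literal form, from the two remaining blocks -/
theorem literal_cd (cC : CaseC) (cD : CaseD) (B : H438.Table) (hB : B.IntegrableNearBoundary) :
    H438.EllipseDomain B.Ω :=
  literal_of H456.Fct.fct Alg.palg_main SC.top caseI cC cD B hB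

/-- `φ` is the normal angle as a function of the Lazutkin parameter (period `1`) -/
def LazAngle (h : ℝ → ℝ) (Λ : ℝ) (φ : ℝ → ℝ) : Prop :=
  0 < Λ ∧ (∀ x, HasDerivAt φ (Λ / (h (φ x) + deriv (deriv h) (φ x)) ^ (1 / 3 : ℝ)) x) ∧
    ∀ x, φ (x + 1) = φ x + 2 * Real.pi

/-- `f : ℝ → ℝ` and `g : ℝ → ℝ` extend holomorphically to `U ⊆ ℂ`, with extensions `F`, `G` -/
def Ext (U : Set ℂ) (f g : ℝ → ℝ) (F G : ℂ → ℂ) : Prop :=
  DifferentiableOn ℂ F U ∧ DifferentiableOn ℂ G U ∧ ∀ x : ℝ, F x = f x ∧ G x = g x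

/-- the pair `(exp (i F), G)`, holomorphic for `|Im z| < b`, has no meromorphic extension to any
neighbourhood of any point of the line `Im z = b` -/
def NatBd (b : ℝ) (F G : ℂ → ℂ) : Prop :=
  ∀ c : ℂ, c.im = b → ¬ ∃ (ρ : ℝ) (Z q : ℂ → ℂ), 0 < ρ ∧ MeromorphicOn Z (ball c ρ) ∧
    MeromorphicOn q (ball c ρ) ∧ ∀ z ∈ ball c ρ, z.im < b → Z z = exp (I * F z) ∧ q z = G z

theorem natBd_of {b : ℝ} {Φb qb : ℂ → ℂ} (h : ¬ TopPt b Φb qb) : NatBd b Φb qb := by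
  rintro c hc ⟨ρ, Z, q, hρ, h1, h2, h3⟩
  have e : c = (c.re : ℂ) + b * I := by
    apply Complex.ext <;> simp [hc]
  refine h ⟨c.re, ρ, Z, q, hρ, ?_, ?_, ?_⟩
  · rw [← e]; exact h1
  · rw [← e]; exact h2
  · rw [← e]; exact h3

theorem lazAngle_of {h : ℝ → ℝ} {κ ρ Λ L : ℝ} {H HH lam Φ : ℂ → ℂ} {l φ : ℝ → ℝ}
    (T : LD h κ ρ Λ L H HH lam Φ l φ) : LazAngle h Λ φ := by
  refine ⟨T.Λ0, fun x => ?_, T.φp⟩
  have h1 := T.dφ x
  have h2 : (h (φ x) + deriv (deriv h) (φ x)) ^ (1 / 3 : ℝ) = l (φ x) := by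
    rw [← T.l3 (φ x), ← Real.rpow_natCast, ← Real.rpow_mul (T.lpos _).le]
    norm_num
  rw [h2]
  exact h1

theorem ext_of {h : ℝ → ℝ} {κ ρ Λ L : ℝ} {H HH lam Φ : ℂ → ℂ} {l φ : ℝ → ℝ} {U : Set ℂ}
    {Φb qb : ℂ → ℂ} (T : LD h κ ρ Λ L H HH lam Φ l φ) (W : HolOn H Φ U Φb qb) :
    Ext U φ (fun x => h (φ x)) Φb qb := by
  refine ⟨W.dΦ, W.dq, fun x => ⟨?_, ?_⟩⟩
  · rw [(W.re x).1, T.Φr]
  · rw [(W.re x).2, T.Φr, T.Hr]

/-- **the three cases**: ellipse, natural boundary, entire curve -/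
theorem tri {h : ℝ → ℝ} {η κ ρ Λ L : ℝ} {H HH lam Φ : ℂ → ℂ} {l φ : ℝ → ℝ} {r e : ℝ}
    {α p : ℂ → ℂ → ℂ} {J : ℂ → ℂ} (W : Wd h η κ ρ Λ L H HH lam Φ l φ r e α p J)
    (hE : ¬ H407.IsEllipse h) :
    ¬ H456.Fct.HAlg κ H ∧ ((∃ Φb qb, HolOn H Φ univ Φb qb) ∨
      ∃ (b : ℝ) (Φb qb : ℂ → ℂ), 0 < b ∧ HolOn H Φ (Str b) Φb qb ∧ ¬ TopPt b Φb qb) := by
  have hA : ¬ H456.Fct.HAlg κ H := fun hA =>
    hE (Alg.ellipse_of_hAlg Alg.palg_main W.η0 W.st (Or.inl W.col) W.ld.κ0 W.ld.Hr hA)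
  refine ⟨hA, ?_⟩
  set S : Set ℝ := {b | 0 < b ∧ ∃ Φb qb, HolOn H Φ (Str b) Φb qb} with hS
  have hρ : ρ ∈ S := ⟨W.ld.ρ0, _, _, hol0 W.ld⟩
  have mer : ∀ b, 0 < b → MerStrip H Φ b → b ∈ S := fun b hb hm =>
    ⟨hb, (caseI W hb hm).resolve_left hE⟩
  by_cases hbd : BddAbove S
  · refine Or.inr ?_
    set b := sSup S with hb
    have hρb : ρ ≤ b := le_csSup hbd hρ
    have hb0 : 0 < b := lt_of_lt_of_le W.ld.ρ0 hρb
    obtain ⟨Φb, qb, hh⟩ := glue (H := H) (Φ := Φ) (S := S) (fun _ hx => hx.1)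
      (fun _ hx => hx.2) ⟨ρ, hρ⟩ (U := Str b) (by
        intro z hz
        obtain ⟨b', hb', h1⟩ := exists_lt_of_lt_csSup ⟨ρ, hρ⟩ (show |z.im| < sSup S from hz)
        exact ⟨b', hb', h1⟩)
    refine ⟨b, Φb, qb, hb0, hh, fun ht => ?_⟩
    obtain ⟨ε, hε, hm⟩ := SC.top H456.Fct.fct ⟨⟨h, ρ, L, HH, lam, l, φ, W.ld⟩, W.ln⟩ hA hb0
      hh.dΦ hh.dq hh.re ht
    have h1 := le_csSup hbd (mer (b + ε) (by linarith) hm)
    linarith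
  · obtain ⟨Φb, qb, hh⟩ := glue (H := H) (Φ := Φ) (S := S) (fun _ hx => hx.1)
      (fun _ hx => hx.2) ⟨ρ, hρ⟩ (U := univ) (by
        intro z _
        obtain ⟨b', hb', h1⟩ := not_bddAbove_iff.1 hbd |z.im|
        exact ⟨b', hb', h1⟩)
    exact Or.inl ⟨Φb, qb, hh⟩

/-- **natural boundary or entire curve**, support functions -/
theorem dich {h : ℝ → ℝ} {η : ℝ} (h0 : 0 < η) (Hs : SmoothTable h)
    (hL : Collar h η ∨ H407.Leaves h η) (hE : ¬ H407.IsEllipse h) :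
    ∃ (Λ : ℝ) (φ : ℝ → ℝ), LazAngle h Λ φ ∧
      ((∃ F G : ℂ → ℂ, Ext univ φ (fun x => h (φ x)) F G) ∨
      ∃ (b : ℝ) (F G : ℂ → ℂ), 0 < b ∧ Ext {z | |z.im| < b} φ (fun x => h (φ x)) F G ∧
        NatBd b F G) := by
  obtain ⟨η', hη', hc⟩ := Alg.collar_of h0 Hs hL
  obtain ⟨κ, ρ, Λ, L, H, HH, lam, Φ, l, φ, r, e, α, p, J, W⟩ := wd_of_collar hη' Hs hc
  refine ⟨Λ, φ, lazAngle_of W.ld, ?_⟩
  rcases (tri W hE).2 with ⟨Φb, qb, h1⟩ | ⟨b, Φb, qb, hb, h1, h2⟩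
  · exact Or.inl ⟨Φb, qb, ext_of W.ld h1⟩
  · exact Or.inr ⟨b, Φb, qb, hb, ext_of W.ld h1, natBd_of h2⟩

/-- literal form -/
theorem dich_table (B : H438.Table) (hB : B.IntegrableNearBoundary)
    (hE : ¬ H438.EllipseDomain B.Ω) :
    ∃ (Λ : ℝ) (φ : ℝ → ℝ), LazAngle (H536.supp B.Ω) Λ φ ∧
      ((∃ F G : ℂ → ℂ, Ext univ φ (fun x => H536.supp B.Ω (φ x)) F G) ∨
      ∃ (b : ℝ) (F G : ℂ → ℂ), 0 < b ∧
        Ext {z | |z.im| < b} φ (fun x => H536.supp B.Ω (φ x)) F G ∧ NatBd b F G) := by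
  obtain ⟨η, hη, hc⟩ := B.collar_of_integrable hB
  have e : H536.supp B.Ω = B.hs := funext (H536.supp_eq B)
  rw [e]
  refine dich hη B.hs_table (Or.inl hc) fun h1 => hE ?_
  obtain ⟨a, b, φ, p, q, ha, hb, h⟩ := h1
  exact B.ellipse_of_support ha hb fun ψ => congrFun h ψ

end Vale.Agent.P097.H6
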