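import Vale.Agent.P097.H6.WallH

/-!
# P097 : case [c], the growth input as a local hypothesis (light file)
-/

set_option linter.all false

open Complex Metric Filter Topology Set MeasureTheory
open scoped ComplexConjugate

namespace Vale.Agent.P097.H6

open Vale.Agent.P097 Vale.Agent.P097.TA Vale.Agent.P097.H202 Vale.Agent.P097.SC
open Vale.Agent.P097.H85 Vale.Agent.P097.H929 Vale.Agent.P097.H543

/-- **growth** of the curve near the wall : every exponent (output of row A5.GROWTH; the hypotheses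
`h1`, `h2` of `H348/G/Out`, `out_all`) -/
def Gr (b : ℝ) (F Q : ℂ → ℂ) : Prop := ∀ a : ℝ, 0 < a → ∃ C : ℝ, ∀ x ∈ Str b,
  ‖deriv F x‖ ≤ Real.exp (C * (b - |x.im|) ^ (-a)) ∧ ‖Q x‖ ≤ Real.exp (C * (b - |x.im|) ^ (-a))

/-- **row A5.GROWTH** -/
def Growth : Prop := ∀ {κ Λ b : ℝ} {H Φ : ℂ → ℂ} {r e : ℝ} {α p : ℂ → ℂ → ℂ} {J F q Q : ℂ → ℂ},
  CC.En κ Λ b H Φ r e α p J F q → CC.Bs Λ b F q Q → Gr b F Q

/-- **row ONE TYPE** with the growth as a hypothesis on the curve -/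
def OneTypeG : Prop := ∀ {κ Λ b : ℝ} {H Φ : ℂ → ℂ} {r e : ℝ} {α p : ℂ → ℂ → ℂ} {J F q Q : ℂ → ℂ}
  {e₁ c₀ : ℝ} {R : ℂ → ℝ} {A P θ : ℂ × ℂ → ℂ}, 0 < e₁ → 0 < c₀ →
  CC.Base κ Λ b H Φ r e α p J F q Q e₁ c₀ R A P θ → Gr b F Q →
  ∀ {n : ℤ} {ε b₀ m : ℝ} {Ψ : ℂ → ℂ} {S : Set ℝ} {Pt : ℝ → ℂ} {c k : ℝ → ℝ} {y₁ y₂ s s' : ℝ},
    GW R A P e₁ n ε b₀ m Ψ S Pt c k y₁ y₂ s s' →
    ∃ (S' : Set ℝ) (y₀ r' : ℝ), S' ⊆ S ∧ volume S' ≠ 0 ∧ 0 < r' ∧ y₁ < y₀ - r' ∧ y₀ + r' < y₂ ∧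
      ∀ u ∈ S', TypeAt b R θ n u y₀ r' b ∨ TypeAt b R θ n u y₀ r' (-b)

theorem oneTypeL_of (hg : Growth) (hT : OneTypeG) : OneTypeL := by
  intro κ Λ b H Φ r e α p J F q Q e₁ c₀ R A P θ he hc hB n ε b₀ m Ψ S Pt c k y₁ y₂ s s' G
  exact hT he hc hB (hg hB.en hB.bs) G

/-- the curve of case [c] has large growth -/
theorem not_gr (hG : Glob) (hT : OneTypeG) {κ Λ b : ℝ} {H Φ : ℂ → ℂ} {r e : ℝ}
    {α p : ℂ → ℂ → ℂ} {J F q Q : ℂ → ℂ} {e₁ c₀ : ℝ} {R : ℂ → ℝ} {A P θ : ℂ × ℂ → ℂ}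
    (he : 0 < e₁) (hc : 0 < c₀) (hB : CC.Base κ Λ b H Φ r e α p J F q Q e₁ c₀ R A P θ) :
    ¬ Gr b F Q := by
  intro hgr
  obtain ⟨n, ε, b₀, m, Ψ, S, Pt, c, k, y₁, y₂, s, s', G⟩ := hG he hc hB
  obtain ⟨S', y₀, r', h1, h2, h3, h4, h5, h6⟩ := hT he hc hB hgr G
  exact hB.bs.nat (wall_lab hB G h1 h2 h3 h4 h5 h6)

/-- the same over the raw data: there is an analytic `Q = F''' / F'` of large growth -/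
theorem not_gr_en (hG : Glob) (hT : OneTypeG) {κ Λ b : ℝ} {H Φ : ℂ → ℂ} {r e : ℝ}
    {α p : ℂ → ℂ → ℂ} {J F q : ℂ → ℂ} (hE : CC.En κ Λ b H Φ r e α p J F q) :
    ∃ Q, CC.Bs Λ b F q Q ∧ ¬ Gr b F Q := by
  obtain ⟨Q, e₀, c, he₀, hc, h1⟩ := CC.exists_base hE
  obtain ⟨R, A, P, θ, hB⟩ := h1 e₀ he₀ le_rfl
  exact ⟨Q, hB.bs, not_gr hG hT he₀ hc hB⟩

end Vale.Agent.P097.H6
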