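import Vale.Agent.P097.H6.TopW
import Vale.Agent.P097.H6.Gr0

/-!
# P097 : the full answer from GLOB, ONE TYPE (with growth) and GROWTH
-/

set_option linter.all false

namespace Vale.Agent.P097.H6

open Vale.Agent.P097

theorem caseC_g (hG : Glob) (hT : OneTypeG) (hg : Growth) : CaseC :=
  caseC_of' hG (oneTypeL_of hg hT)

/-- **the full answer** -/
theorem literal_g (hG : Glob) (hT : OneTypeG) (hg : Growth) (B : H438.Table)
    (hB : B.IntegrableNearBoundary) : H438.EllipseDomain B.Ω :=
  literal_c (caseC_g hG hT hg) B hB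

end Vale.Agent.P097.H6
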