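import Vale.Agent.P097.H6.Gr0
import Vale.Agent.P097.H275.G.Main

/-!
# P097 : GROWTH, the literal Prop of `H6/Gr0` (light file)
-/

set_option linter.all false

namespace Vale.Agent.P097.H6

open Vale.Agent.P097

/-- **row A5.GROWTH** -/
theorem growth : Growth := by
  intro κ Λ b H Φ r e α p J F q Q E B a ha
  obtain ⟨C, _, h⟩ := GR.growth_a E B ha
  exact ⟨C, fun x hx => ⟨(h x hx).2.1, (h x hx).2.2.2.1⟩⟩

end Vale.Agent.P097.H6
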