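import Vale.Agent.P097.H6.GrTop
import Vale.Agent.P097.H85.Glob

/-!
# P097 : the full answer, both forms, from the remaining rows
-/

set_option linter.all false

open Complex Metric Filter Topology Set
open scoped ComplexConjugate

namespace Vale.Agent.P097.H6

open Vale.Agent.P097 Vale.Agent.P097.TA Vale.Agent.P097.H202 Vale.Agent.P097.SC

/-- support functions, from case [c] -/
theorem ellipse_c (cC : CaseC) {h : ℝ → ℝ} {η : ℝ} (h0 : 0 < η) (Hs : SmoothTable h)
    (hL : Collar h η ∨ H407.Leaves h η) : H407.IsEllipse h := by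
  obtain ⟨η', hη', hc⟩ := Alg.collar_of h0 Hs hL
  obtain ⟨κ, ρ, Λ, L, H, HH, lam, Φ, l, φ, r, e, α, p, J, W⟩ := wd_of_collar hη' Hs hc
  by_contra hE
  rcases (tri W hE).2 with ⟨Φb, qb, h1⟩ | ⟨b, Φb, qb, hb, h1, h2⟩
  · exact hE (caseD W (tri W hE).1 h1)
  · exact hE (cC W (tri W hE).1 hb h1 h2)

/-- both forms, from case [c] -/
theorem both_c (cC : CaseC) :
    (∀ (h : ℝ → ℝ) (η : ℝ), SmoothTable h → 0 < η → (Collar h η ∨ H407.Leaves h η) →
      H407.IsEllipse h) ∧
    (∀ B : H438.Table, B.IntegrableNearBoundary → H438.EllipseDomain B.Ω) :=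
  ⟨fun _ _ Hs h0 hL => ellipse_c cC h0 Hs hL, fun B hB => literal_c cC B hB⟩

/-- both forms, from the row ONE TYPE -/
theorem both_l (hT : OneTypeL) :
    (∀ (h : ℝ → ℝ) (η : ℝ), SmoothTable h → 0 < η → (Collar h η ∨ H407.Leaves h η) →
      H407.IsEllipse h) ∧
    (∀ B : H438.Table, B.IntegrableNearBoundary → H438.EllipseDomain B.Ω) :=
  both_c (caseC_of' H85.glob hT)

/-- both forms, from the rows ONE TYPE (with growth) and GROWTH -/
theorem both_g (hT : OneTypeG) (hg : Growth) :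
    (∀ (h : ℝ → ℝ) (η : ℝ), SmoothTable h → 0 < η → (Collar h η ∨ H407.Leaves h η) →
      H407.IsEllipse h) ∧
    (∀ B : H438.Table, B.IntegrableNearBoundary → H438.EllipseDomain B.Ω) :=
  both_c (caseC_g H85.glob hT hg)

end Vale.Agent.P097.H6
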