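import Vale.Agent.P097.H6.CaseD
import Vale.Agent.P097.H286.C.Base

/-!
# P097 : top of case [c]: reduction of `CaseC` to a contradiction over the base
-/

set_option linter.all false

open Complex Metric Filter Topology Set
open scoped ComplexConjugate

namespace Vale.Agent.P097.H6

open Vale.Agent.P097 Vale.Agent.P097.TA Vale.Agent.P097.H202 Vale.Agent.P097.SC

/-- data of case [c] in the form of `H286/C/Defs` -/
theorem en_of {h : ℝ → ℝ} {η κ ρ Λ L : ℝ} {H HH lam Φ : ℂ → ℂ} {l φ : ℝ → ℝ} {r e : ℝ}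
    {α p : ℂ → ℂ → ℂ} {J : ℂ → ℂ} (W : Wd h η κ ρ Λ L H HH lam Φ l φ r e α p J)
    (hna : ¬ H456.Fct.HAlg κ H) {b : ℝ} {Φb qb : ℂ → ℂ} (hb : 0 < b)
    (hO : HolOn H Φ (Str b) Φb qb) (ht : ¬ TopPt b Φb qb) :
    CC.En κ Λ b H Φ r e α p J Φb qb :=
  ⟨⟨⟨h, ρ, L, HH, lam, l, φ, W.ld⟩, W.ln⟩, hna, hb, hO.dΦ, hO.dq, hO.re, ht⟩

/-- **No natural boundary** : the Prop of block [c] over the raw data -/
def NoEn : Prop := ∀ {κ Λ b : ℝ} {H Φ : ℂ → ℂ} {r e : ℝ} {α p : ℂ → ℂ → ℂ} {J F q : ℂ → ℂ},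
  CC.En κ Λ b H Φ r e α p J F q → False

/-- **No natural boundary** : the Prop of block [c] over the base (R0) -/
def NoBase : Prop := ∀ {κ Λ b : ℝ} {H Φ : ℂ → ℂ} {r e : ℝ} {α p : ℂ → ℂ → ℂ} {J F q Q : ℂ → ℂ}
  {e₁ c : ℝ} {R : ℂ → ℝ} {A P θ : ℂ × ℂ → ℂ}, 0 < e₁ → 0 < c →
  CC.Base κ Λ b H Φ r e α p J F q Q e₁ c R A P θ → False

theorem noEn_of (h : NoBase) : NoEn := by
  intro κ Λ b H Φ r e α p J F q hE
  obtain ⟨Q, e₀, c, he₀, hc, h1⟩ := CC.exists_base hE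
  obtain ⟨R, A, P, θ, hB⟩ := h1 e₀ he₀ le_rfl
  exact h he₀ hc hB

theorem caseC_of_en (h : NoEn) : CaseC := by
  intro f η κ ρ Λ L H HH lam Φ l φ r e α p J W hna b Φb qb hb hO ht
  exact absurd (en_of W hna hb hO ht) h

theorem caseC_of_base (h : NoBase) : CaseC := caseC_of_en (noEn_of h)

/-- the full answer from the contradiction over the base -/
theorem literal_of_base (h : NoBase) (B : H438.Table) (hB : B.IntegrableNearBoundary) :
    H438.EllipseDomain B.Ω := literal_c (caseC_of_base h) B hB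

end Vale.Agent.P097.H6
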