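import Vale.Agent.P097.H6.TopC
import Vale.Agent.P097.H6.WallH

/-!
# P097 : case [c], the chain below the base: typed Props and assembly

The definitions are in `TopW0`, the interface lemmas in `TopR0`, row WALL in `WallG`, `WallH`.
-/

set_option linter.all false

open Complex Metric Filter Topology Set MeasureTheory
open scoped ComplexConjugate

namespace Vale.Agent.P097.H6

open Vale.Agent.P097 Vale.Agent.P097.TA Vale.Agent.P097.H202 Vale.Agent.P097.SC
open Vale.Agent.P097.H85 Vale.Agent.P097.H929 Vale.Agent.P097.H543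

/-- **assembly** -/
theorem noBase_of (hG : Glob) (hT : OneType) (hW : Wall) : NoBase := by
  intro κ Λ b H Φ r e α p J F q Q e₁ c₀ R A P θ he hc hB
  obtain ⟨n, ε, b₀, m, Ψ, S, Pt, c, k, y₁, y₂, s, s', G⟩ := hG he hc hB
  obtain ⟨S', y₀, r', h1, h2, h3, h4, h5, h6⟩ := hT he hc hB G
  exact hB.bs.nat (hW he hc hB G h1 h2 h3 h4 h5 h6)

/-- **the full answer from two rows** -/
theorem noBase_of' (hG : Glob) (hT : OneTypeL) : NoBase := by
  intro κ Λ b H Φ r e α p J F q Q e₁ c₀ R A P θ he hc hB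
  obtain ⟨n, ε, b₀, m, Ψ, S, Pt, c, k, y₁, y₂, s, s', G⟩ := hG he hc hB
  obtain ⟨S', y₀, r', h1, h2, h3, h4, h5, h6⟩ := hT he hc hB G
  exact hB.bs.nat (wall_lab hB G h1 h2 h3 h4 h5 h6)

theorem caseC_of (hG : Glob) (hT : OneType) (hW : Wall) : CaseC :=
  caseC_of_base (noBase_of hG hT hW)

theorem caseC_of' (hG : Glob) (hT : OneTypeL) : CaseC := caseC_of_base (noBase_of' hG hT)

theorem literal_of' (hG : Glob) (hT : OneTypeL) (B : H438.Table)
    (hB : B.IntegrableNearBoundary) : H438.EllipseDomain B.Ω :=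
  literal_of_base (noBase_of' hG hT) B hB

end Vale.Agent.P097.H6
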