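import Vale.Agent.P097.H286.C.Base
import Vale.Agent.P097.H929.World

/-!
# P097 : case [c], the chain below the base: typed Props (light file, version 2)

`Ln f n` = line number `n`; `MM` = domain of vertical continuation of line `n`;
`GW` = the global world (first drop at the vertex between the lines `n - 1` and `n`).
-/

set_option linter.all false

open Complex Metric Filter Topology Set MeasureTheory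
open scoped ComplexConjugate

namespace Vale.Agent.P097.H6

open Vale.Agent.P097 Vale.Agent.P097.TA Vale.Agent.P097.H202 Vale.Agent.P097.SC
open Vale.Agent.P097.H85 Vale.Agent.P097.H929 Vale.Agent.P097.H543

/-- line number `n` (`f = A` or `f = P` of the base) -/
def Ln (f : ℂ × ℂ → ℂ) (n : ℤ) (t w : ℂ) : ℂ := f (t + n * w, w)

/-- the part above the level `b₀` of the domain where line `n` is given by the base; the labels are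
in the strip `|Im w| < ε` -/
def Bn (R : ℂ → ℝ) (e₁ ε b₀ : ℝ) (n : ℤ) : Set (ℂ × ℂ) :=
  {z | b₀ < z.1.im ∧ z.1.im + n * z.2.im < R z.2 ∧ ‖z.2‖ < e₁ ∧ |z.2.im| < ε}

/-- domain of vertical continuation of line `n` -/
def MM (R : ℂ → ℝ) (A P : ℂ × ℂ → ℂ) (e₁ ε b₀ : ℝ) (n : ℤ) : Set (ℂ × ℂ) :=
  Mx b₀ (Ln A n) (Bn R e₁ ε b₀ n) ∩ Mx b₀ (Ln P n) (Bn R e₁ ε b₀ n)

/-- the position of the vertex between the lines `n - 1` and `n`, over the base -/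
noncomputable def Th (θ : ℂ × ℂ → ℂ) (n : ℤ) (z : ℂ × ℂ) : ℂ := θ (z.1 + (n - 1 / 2) * z.2, z.2)

/-- **the global world** of case [c] -/
structure GW (R : ℂ → ℝ) (A P : ℂ × ℂ → ℂ) (e₁ : ℝ) (n : ℤ) (ε b₀ m : ℝ) (Ψ : ℂ → ℂ) (S : Set ℝ)
    (Pt : ℝ → ℂ) (c k : ℝ → ℝ) (y₁ y₂ s s' : ℝ) : Prop where
  n0 : n ≤ 0
  ε0 : 0 < ε
  b00 : 0 < b₀
  nε : (|(n : ℝ)| + 1) * ε ≤ b₀
  bm : b₀ < m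
  Sc : IsCompact S
  S0 : volume S ≠ 0
  Se : ∀ u ∈ S, |u| < e₁
  irr : ∀ u ∈ S, Irrational u
  Pi : ∀ u ∈ S, (Pt u).im = R u
  bR : ∀ u ∈ S, b₀ < R u
  cR : ContinuousOn (fun u => (Pt u).im) S
  cc : ContinuousOn c S
  uj : CmpU (MM R A P e₁ ε b₀ n) b₀ m Ψ S Pt c k
  uk : CmpU (MM R A P e₁ ε b₀ (n - 1)) b₀ m Ψ S Pt c k
  cone : ∃ K : ℝ, ∀ η > 0, ∃ δ > 0, ∀ u ∈ S, ∀ v : ℂ, ‖v‖ < δ →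
    R u + c u * v.re - K * |v.im| - η * ‖v‖ ≤ R (u + v)
  hy : y₁ < y₂
  ss : s' < s
  drop : ∃ c' Λ' r' : ℝ, 0 < c' ∧ 0 < r' ∧ ∀ u ∈ S, ∀ y : ℝ, y₁ < y → y < y₂ → ∀ r : ℝ, 0 < r →
    r < r' → ¬ Win b₀ u (Pt u).im (c u) y r s' c' Λ' ⊆ MM R A P e₁ ε b₀ n
  win : ∀ u ∈ S, ∀ y : ℝ, y₁ < y → y < y₂ → ∀ δ > 0,
    RegB (MM R A P e₁ ε b₀ (n - 1)) b₀ S Pt c y u (s - δ)

/-- **row GLOB** -/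
def Glob : Prop := ∀ {κ Λ b : ℝ} {H Φ : ℂ → ℂ} {r e : ℝ} {α p : ℂ → ℂ → ℂ} {J F q Q : ℂ → ℂ}
  {e₁ c₀ : ℝ} {R : ℂ → ℝ} {A P θ : ℂ × ℂ → ℂ}, 0 < e₁ → 0 < c₀ →
  CC.Base κ Λ b H Φ r e α p J F q Q e₁ c₀ R A P θ →
  ∃ (n : ℤ) (ε b₀ m : ℝ) (Ψ : ℂ → ℂ) (S : Set ℝ) (Pt : ℝ → ℂ) (c k : ℝ → ℝ) (y₁ y₂ s s' : ℝ),
    GW R A P e₁ n ε b₀ m Ψ S Pt c k y₁ y₂ s s'

/-- vertical boundary values of the position: one wall (`sg = 1` top, `sg = -1` bottom) -/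
def OneT (b : ℝ) (R : ℂ → ℝ) (θ : ℂ × ℂ → ℂ) (n : ℤ) (S : Set ℝ) (y₀ r sg : ℝ) : Prop :=
  ∀ u ∈ S, ∀ᵐ x : ℝ, |x - y₀| < r →
    Tendsto (fun η : ℝ => (Th θ n (((x : ℂ) + ((R u - η : ℝ) : ℂ) * I), (u : ℂ))).im) (𝓝[>] 0)
      (𝓝 (sg * b))

/-- **row ONE TYPE** = (A4) + (A5) -/
def OneType : Prop := ∀ {κ Λ b : ℝ} {H Φ : ℂ → ℂ} {r e : ℝ} {α p : ℂ → ℂ → ℂ} {J F q Q : ℂ → ℂ}
  {e₁ c₀ : ℝ} {R : ℂ → ℝ} {A P θ : ℂ × ℂ → ℂ}, 0 < e₁ → 0 < c₀ →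
  CC.Base κ Λ b H Φ r e α p J F q Q e₁ c₀ R A P θ →
  ∀ {n : ℤ} {ε b₀ m : ℝ} {Ψ : ℂ → ℂ} {S : Set ℝ} {Pt : ℝ → ℂ} {c k : ℝ → ℝ} {y₁ y₂ s s' : ℝ},
    GW R A P e₁ n ε b₀ m Ψ S Pt c k y₁ y₂ s s' →
    ∃ (S' : Set ℝ) (y₀ r' : ℝ), S' ⊆ S ∧ volume S' ≠ 0 ∧ 0 < r' ∧ y₁ < y₀ - r' ∧ y₀ + r' < y₂ ∧
      (OneT b R θ n S' y₀ r' 1 ∨ OneT b R θ n S' y₀ r' (-1))

/-- vertical limits of the position at one wall, depending on the label -/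
def TypeAt (b : ℝ) (R : ℂ → ℝ) (θ : ℂ × ℂ → ℂ) (n : ℤ) (u y₀ r w : ℝ) : Prop :=
  ∀ᵐ x : ℝ, |x - y₀| < r →
    Tendsto (fun η : ℝ => (Th θ n (((x : ℂ) + ((R u - η : ℝ) : ℂ) * I), (u : ℂ))).im) (𝓝[>] 0)
      (𝓝 w)

/-- **row ONE TYPE**, weak form: the type may depend on the label -/
def OneTypeL : Prop := ∀ {κ Λ b : ℝ} {H Φ : ℂ → ℂ} {r e : ℝ} {α p : ℂ → ℂ → ℂ} {J F q Q : ℂ → ℂ}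
  {e₁ c₀ : ℝ} {R : ℂ → ℝ} {A P θ : ℂ × ℂ → ℂ}, 0 < e₁ → 0 < c₀ →
  CC.Base κ Λ b H Φ r e α p J F q Q e₁ c₀ R A P θ →
  ∀ {n : ℤ} {ε b₀ m : ℝ} {Ψ : ℂ → ℂ} {S : Set ℝ} {Pt : ℝ → ℂ} {c k : ℝ → ℝ} {y₁ y₂ s s' : ℝ},
    GW R A P e₁ n ε b₀ m Ψ S Pt c k y₁ y₂ s s' →
    ∃ (S' : Set ℝ) (y₀ r' : ℝ), S' ⊆ S ∧ volume S' ≠ 0 ∧ 0 < r' ∧ y₁ < y₀ - r' ∧ y₀ + r' < y₂ ∧
      ∀ u ∈ S', TypeAt b R θ n u y₀ r' b ∨ TypeAt b R θ n u y₀ r' (-b)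

/-- **row WALL** = (A6) + (A7) -/
def Wall : Prop := ∀ {κ Λ b : ℝ} {H Φ : ℂ → ℂ} {r e : ℝ} {α p : ℂ → ℂ → ℂ} {J F q Q : ℂ → ℂ}
  {e₁ c₀ : ℝ} {R : ℂ → ℝ} {A P θ : ℂ × ℂ → ℂ}, 0 < e₁ → 0 < c₀ →
  CC.Base κ Λ b H Φ r e α p J F q Q e₁ c₀ R A P θ →
  ∀ {n : ℤ} {ε b₀ m : ℝ} {Ψ : ℂ → ℂ} {S : Set ℝ} {Pt : ℝ → ℂ} {c k : ℝ → ℝ} {y₁ y₂ s s' : ℝ},
    GW R A P e₁ n ε b₀ m Ψ S Pt c k y₁ y₂ s s' →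
    ∀ {S' : Set ℝ} {y₀ r' : ℝ}, S' ⊆ S → volume S' ≠ 0 → 0 < r' → y₁ < y₀ - r' → y₀ + r' < y₂ →
      (OneT b R θ n S' y₀ r' 1 ∨ OneT b R θ n S' y₀ r' (-1)) → CC.TopM b F q

/-- the world is hereditary for compact subsets of positive measure and for subintervals -/
theorem GW.mono {R : ℂ → ℝ} {A P : ℂ × ℂ → ℂ} {e₁ : ℝ} {n : ℤ} {ε b₀ m : ℝ} {Ψ : ℂ → ℂ}
    {S : Set ℝ} {Pt : ℝ → ℂ} {c k : ℝ → ℝ} {y₁ y₂ s s' : ℝ}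
    (G : GW R A P e₁ n ε b₀ m Ψ S Pt c k y₁ y₂ s s') {S' : Set ℝ} (hS : S' ⊆ S)
    (hc : IsCompact S') (h0 : volume S' ≠ 0) {z₁ z₂ : ℝ} (h1 : y₁ ≤ z₁) (h2 : z₂ ≤ y₂)
    (h : z₁ < z₂) : GW R A P e₁ n ε b₀ m Ψ S' Pt c k z₁ z₂ s s' := by
  have hU : ∀ {M : Set (ℂ × ℂ)}, CmpU M b₀ m Ψ S Pt c k → CmpU M b₀ m Ψ S' Pt c k := by
    intro M hM
    obtain ⟨T, hT⟩ := hM.bd
    refine ⟨⟨T, fun u hu => hT u (hS hu)⟩, fun c₀ hc₀ ε hε => ?_⟩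
    obtain ⟨ρ, hρ, h3⟩ := hM.cmp c₀ hc₀ ε hε
    exact ⟨ρ, hρ, fun u hu => h3 u (hS hu)⟩
  obtain ⟨K, hK⟩ := G.cone
  obtain ⟨c', Λ', r', hc', hr', hd⟩ := G.drop
  refine ⟨G.n0, G.ε0, G.b00, G.nε, G.bm, hc, h0, fun u hu => G.Se u (hS hu),
    fun u hu => G.irr u (hS hu), fun u hu => G.Pi u (hS hu), fun u hu => G.bR u (hS hu),
    G.cR.mono hS, G.cc.mono hS, hU G.uj, hU G.uk, ⟨K, fun η hη => ?_⟩, h, G.ss,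
    ⟨c', Λ', r', hc', hr', fun u hu y hy1 hy2 => hd u (hS hu) y (by linarith) (by linarith)⟩, ?_⟩
  · obtain ⟨δ, hδ, h3⟩ := hK η hη
    exact ⟨δ, hδ, fun u hu => h3 u (hS hu)⟩
  · intro u hu y hy1 hy2 δ hδ
    obtain ⟨d, hd0, h3⟩ := G.win u (hS hu) y (by linarith) (by linarith) δ hδ
    refine ⟨d, hd0, fun c₂ hc₂ Λ₂ => ?_⟩
    obtain ⟨r₀, hr₀, h4⟩ := h3 c₂ hc₂ Λ₂
    exact ⟨r₀, hr₀, fun u' hu' => h4 u' (hS hu')⟩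

/-- the thin layer of the world -/
theorem GW.lay {R : ℂ → ℝ} {A P : ℂ × ℂ → ℂ} {e₁ : ℝ} {n : ℤ} {ε b₀ m : ℝ} {Ψ : ℂ → ℂ}
    {S : Set ℝ} {Pt : ℝ → ℂ} {c k : ℝ → ℝ} {y₁ y₂ s s' : ℝ}
    (hRj : RH b₀ (MM R A P e₁ ε b₀ n)) (hRk : RH b₀ (MM R A P e₁ ε b₀ (n - 1)))
    (G : GW R A P e₁ n ε b₀ m Ψ S Pt c k y₁ y₂ s s') :
    ∃ y₀ u₀ σ : ℝ, y₁ < y₀ ∧ y₀ < y₂ ∧ σ ≤ s' ∧
      Lay (MM R A P e₁ ε b₀ n) (MM R A P e₁ ε b₀ (n - 1)) b₀ S Pt c y₀ u₀ σ s := by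
  obtain ⟨c', Λ', r', hc', hr', hd⟩ := G.drop
  have hne : S.Nonempty := by
    by_contra h
    rw [not_nonempty_iff_eq_empty] at h
    exact G.S0 (by rw [h]; exact measure_empty)
  exact exists_lay (m := m) (Ψ := Ψ) (k := k) hRj hRk G.uj G.uk G.bm G.Sc hne
    G.cR G.cc (fun u hu => by rw [G.Pi u hu]; exact G.bR u hu) G.hy
    hc' hr' (fun u hu y hy1 hy2 => hd u hu y hy1 hy2) G.win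

end Vale.Agent.P097.H6
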