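import Vale.Agent.P097.H6.TopR0
import Vale.Agent.P097.H877.Bd.End7

/-!
# P097 : case [c], row WALL = (A6) + (A7) over the global world
-/

set_option linter.all false

open Complex Metric Filter Topology Set MeasureTheory
open scoped ComplexConjugate

namespace Vale.Agent.P097.H6

open Vale.Agent.P097 Vale.Agent.P097.TA Vale.Agent.P097.H202 Vale.Agent.P097.SC
open Vale.Agent.P097.H85 Vale.Agent.P097.H929 Vale.Agent.P097.H543 Vale.Agent.P097.H456.C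
open Vale.Agent.P097.H877.Bd

variable {κ Λ b : ℝ} {H Φ : ℂ → ℂ} {r e : ℝ} {α p : ℂ → ℂ → ℂ} {J F q Q : ℂ → ℂ}
  {e₁ c₀ : ℝ} {R : ℂ → ℝ} {A P θ : ℂ × ℂ → ℂ} {n : ℤ} {ε b₀ : ℝ}

/-- bracket as a function of two analytic functions -/
theorem an_brf {f g : ℂ × ℂ → ℂ} {u : ℂ × ℂ} (hf : AnalyticAt ℂ f u) (hg : AnalyticAt ℂ g u) :
    AnalyticAt ℂ (fun u => fderiv ℂ f u (1, 0) * fderiv ℂ g u (0, 1) -
      fderiv ℂ f u (0, 1) * fderiv ℂ g u (1, 0)) u := by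
  have k : ∀ {f : ℂ × ℂ → ℂ} (v : ℂ × ℂ), AnalyticAt ℂ f u →
      AnalyticAt ℂ (fun u => fderiv ℂ f u v) u := fun v hf =>
    ((ContinuousLinearMap.apply ℂ ℂ v).analyticAt _).comp hf.fderiv
  exact ((k _ hf).mul (k _ hg)).sub ((k _ hf).mul (k _ hg))

/-- the bracket is invariant under shears -/
theorem brf_shear {f g : ℂ × ℂ → ℂ} {m : ℂ} {z : ℂ × ℂ} (hf : AnalyticAt ℂ f (z.1 + m * z.2, z.2))
    (hg : AnalyticAt ℂ g (z.1 + m * z.2, z.2)) :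
    fderiv ℂ (fun z : ℂ × ℂ => f (z.1 + m * z.2, z.2)) z (1, 0) *
        fderiv ℂ (fun z : ℂ × ℂ => g (z.1 + m * z.2, z.2)) z (0, 1) -
      fderiv ℂ (fun z : ℂ × ℂ => f (z.1 + m * z.2, z.2)) z (0, 1) *
        fderiv ℂ (fun z : ℂ × ℂ => g (z.1 + m * z.2, z.2)) z (1, 0) =
    fderiv ℂ f (z.1 + m * z.2, z.2) (1, 0) * fderiv ℂ g (z.1 + m * z.2, z.2) (0, 1) -
      fderiv ℂ f (z.1 + m * z.2, z.2) (0, 1) * fderiv ℂ g (z.1 + m * z.2, z.2) (1, 0) := by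
  set L : ℂ × ℂ →L[ℂ] ℂ × ℂ :=
    ((ContinuousLinearMap.fst ℂ ℂ ℂ) + m • (ContinuousLinearMap.snd ℂ ℂ ℂ)).prod
      (ContinuousLinearMap.snd ℂ ℂ ℂ) with hL
  have hLv : ∀ v : ℂ × ℂ, L v = (v.1 + m * v.2, v.2) := by
    intro v
    simp [hL]
  have key : ∀ {h : ℂ × ℂ → ℂ}, AnalyticAt ℂ h (z.1 + m * z.2, z.2) → ∀ v : ℂ × ℂ,
      fderiv ℂ (fun z : ℂ × ℂ => h (z.1 + m * z.2, z.2)) z v =
        fderiv ℂ h (z.1 + m * z.2, z.2) (v.1 + m * v.2, v.2) := by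
    intro h hh v
    have e1 : (fun z : ℂ × ℂ => h (z.1 + m * z.2, z.2)) = fun z => h (L z) := by
      funext y
      rw [hLv]
    have e2 : HasFDerivAt (fun z => h (L z)) ((fderiv ℂ h (L z)).comp L) z := by
      have h3 : DifferentiableAt ℂ h (L z) := by
        rw [hLv]; exact hh.differentiableAt
      exact h3.hasFDerivAt.comp z L.hasFDerivAt
    rw [e1, e2.fderiv, ContinuousLinearMap.comp_apply, hLv, hLv]
  have lin : ∀ (T : ℂ × ℂ →L[ℂ] ℂ), T (m, 1) = m * T (1, 0) + T (0, 1) := by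
    intro T
    have e1 : ((m, 1) : ℂ × ℂ) = m • ((1, 0) : ℂ × ℂ) + ((0, 1) : ℂ × ℂ) := by
      ext <;> simp
    rw [e1, map_add, map_smul, smul_eq_mul]
  rw [key hf, key hg, key hf, key hg]
  simp only [mul_zero, add_zero, mul_one, zero_add]
  rw [lin, lin]
  ring

/-- labels of the domain -/
theorem label_lt (hB : CC.Base κ Λ b H Φ r e α p J F q Q e₁ c₀ R A P θ) {t w : ℂ}
    (h : (t, w) ∈ MM R A P e₁ ε b₀ n) : ‖w‖ < e₁ ∧ |w.im| < ε := by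
  obtain ⟨s, -, -, h1⟩ := (ext_MM (n := n) (b₀ := b₀) (ε := ε) hB).1.above t w h.1
  exact h1.2.2

/-- **the Jacobian of the lines on the whole domain of continuation** -/
theorem jac_MM (hB : CC.Base κ Λ b H Φ r e α p J F q Q e₁ c₀ R A P θ)
    (hn : |(n : ℝ)| * ε ≤ b₀) {t w : ℂ} (h : (t, w) ∈ MM R A P e₁ ε b₀ n) :
    br (gx b₀ (Ln A n) (Bn R e₁ ε b₀ n)) (gx b₀ (Ln P n) (Bn R e₁ ε b₀ n)) t w = J w := by
  obtain ⟨x1, x2⟩ := ext_MM (n := n) (b₀ := b₀) (ε := ε) hB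
  have hBo := isOpen_Bn (n := n) (b₀ := b₀) (ε := ε) hB
  set al : ℂ × ℂ → ℂ := fun z => gx b₀ (Ln A n) (Bn R e₁ ε b₀ n) z.1 z.2 with hal
  set pp : ℂ × ℂ → ℂ := fun z => gx b₀ (Ln P n) (Bn R e₁ ε b₀ n) z.1 z.2 with hpp
  have hMo : IsOpen (MM R A P e₁ ε b₀ n) := x1.dn.op.inter x2.dn.op
  have aal : ∀ z ∈ MM R A P e₁ ε b₀ n, AnalyticAt ℂ al z := fun z hz =>
    (Hol.analyticOnNhd_of_differentiableOn x1.dn.op x1.jd) z hz.1
  have app : ∀ z ∈ MM R A P e₁ ε b₀ n, AnalyticAt ℂ pp z := fun z hz =>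
    (Hol.analyticOnNhd_of_differentiableOn x2.dn.op x2.jd) z hz.2
  have e0 : br (gx b₀ (Ln A n) (Bn R e₁ ε b₀ n)) (gx b₀ (Ln P n) (Bn R e₁ ε b₀ n)) t w =
      fderiv ℂ al (t, w) (1, 0) * fderiv ℂ pp (t, w) (0, 1) -
        fderiv ℂ al (t, w) (0, 1) * fderiv ℂ pp (t, w) (1, 0) :=
    H830.CD.br_eq_fderiv (aal _ h) (app _ h)
  rw [e0]
  set g : ℂ → ℂ → ℂ := fun t w => fderiv ℂ al (t, w) (1, 0) * fderiv ℂ pp (t, w) (0, 1) -
    fderiv ℂ al (t, w) (0, 1) * fderiv ℂ pp (t, w) (1, 0) with hg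
  obtain ⟨s, hs1, hs2, hs3⟩ := x1.above t w h.1
  have hsM : ((t.re : ℂ) + (s : ℝ) * I, w) ∈ MM R A P e₁ ε b₀ n :=
    ⟨x1.dn.down t w s h.1 hs1 hs2, x2.dn.down t w s h.2 hs1 hs2⟩
  have jg : JD g (MM R A P e₁ ε b₀ n) := by
    intro z hz
    exact (an_brf (aal z hz) (app z hz)).differentiableAt.differentiableWithinAt
  have jJ : JD (fun _ w => J w) (MM R A P e₁ ε b₀ n) := by
    rintro ⟨t', w'⟩ hz
    have h1 : DifferentiableAt ℂ J w' := by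
      refine hB.en.ctx.ln.jJ.differentiableAt (isOpen_ball.mem_nhds ?_)
      rw [mem_ball_zero_iff]
      exact (label_lt hB hz).1.trans_le hB.ee
    exact (DifferentiableAt.comp (t', w') (f := fun z : ℂ × ℂ => z.2) h1
      differentiableAt_snd).differentiableWithinAt
  refine vert_eq hMo hMo jg jJ hs2 (fun σ h1 h2 => ?_) ?_
  · have h3 : ((t.re : ℂ) + (σ : ℝ) * I, w) ∈ MM R A P e₁ ε b₀ n :=
      ⟨x1.dn.down t w σ h.1 (by linarith) h2, x2.dn.down t w σ h.2 (by linarith) h2⟩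
    exact ⟨h3, h3⟩
  · have hN : IsOpen (Bn R e₁ ε b₀ n ∩ MM R A P e₁ ε b₀ n) := hBo.inter hMo
    have hpre : IsOpen {z : ℂ | (z, w) ∈ Bn R e₁ ε b₀ n ∩ MM R A P e₁ ε b₀ n} :=
      hN.preimage (by fun_prop)
    filter_upwards [hpre.mem_nhds (show ((t.re : ℂ) + (s : ℝ) * I, w) ∈
      Bn R e₁ ε b₀ n ∩ MM R A P e₁ ε b₀ n from ⟨hs3, hsM⟩)] with z hz
    have e1 : al =ᶠ[𝓝 (z, w)] fun y => A (y.1 + n * y.2, y.2) := by
      filter_upwards [hN.mem_nhds hz] with y hy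
      exact x1.eq y hy.2.1 hy.1
    have e2 : pp =ᶠ[𝓝 (z, w)] fun y => P (y.1 + n * y.2, y.2) := by
      filter_upwards [hN.mem_nhds hz] with y hy
      exact x2.eq y hy.2.2 hy.1
    have hD : (z + (n : ℂ) * w, w) ∈ Dm R e₁ := Bn_sub hB hn hz.1
    have e3 := brf_shear (m := (n : ℂ)) (z := (z, w)) (f := A) (g := P) (hB.rd.aA _ hD)
      (hB.rd.aP _ hD)
    have e4 := hB.rd.bracket hB.en.ctx.ln hB.ee hD
    have e5 : br (fun t w => A (t, w)) (fun t w => P (t, w)) (z + (n : ℂ) * w) w =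
        fderiv ℂ A (z + (n : ℂ) * w, w) (1, 0) * fderiv ℂ P (z + (n : ℂ) * w, w) (0, 1) -
        fderiv ℂ A (z + (n : ℂ) * w, w) (0, 1) * fderiv ℂ P (z + (n : ℂ) * w, w) (1, 0) :=
      H830.CD.br_eq_fderiv (hB.rd.aA _ hD) (hB.rd.aP _ hD)
    simp only [hg]
    rw [e1.fderiv_eq, e2.fderiv_eq, e3, ← e5]
    exact e4

end Vale.Agent.P097.H6
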